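import Vale.Agent.P091.T.H233.StageG
import Vale.Agent.P091.T.H103.Bad

/-!
# P091, heart block, E1-D (helper233): the x-side of helper103's `Dat` over the process `pdZ`

`PD.stt t κ v` : status on departure of the class `κ` in the stage `t` (`some w`, `w` = activation
node).  For every `Dat` whose status satisfies `StIff` (characterisation of `stt`):
* `st0`, `sts` : fields of `Dat.Ok`;
* `S_lm_le` : the mass leaving the stage is at most `1`;
* `ma_eq_av` : masses of the classes;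
* `energyD`, `energyD_wtZ` : `S (∑ dα²/α) ≤ 5 th A D (t+1) + 4`;
* `xm_le` : exceptional mass `≤ 2 exp (-th A D t / 2)`.
-/

set_option autoImplicit false
set_option linter.unusedSectionVars false

open Finset Vale.Agent.P091.H413 Vale.Agent.P091.T.H587 Vale.Agent.P091.T.H350
open Vale.Agent.P091.Spec Vale.Agent.P065.Ent
open scoped Classical

noncomputable section

namespace Vale.Agent.P091.T.H233

namespace PD

variable {X : Type} [Fintype X] (P : PD X)

/-- status on departure of the class `κ` in the stage `t` -/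
def stt (t : ℕ) (κ : X) : Node → Option Node
  | [] => if P.mem t κ [] then some [] else none
  | c :: v => if P.mem t κ (c :: v) then
      (if κ ∈ P.new (c :: v) t then some (c :: v) else stt t κ v) else none

/-- characterisation of the status -/
def StIff (t : ℕ) (st : X → Node → Option Node) : Prop :=
  ∀ κ v w, st κ v = some w ↔
    P.mem t κ v ∧ ∃ ℓ, ℓ ≤ v.length ∧ w = anc ℓ v ∧ κ ∈ P.new (anc ℓ v) t

lemma new_of_len {κ : X} {v : Node} {t : ℕ} (hv : κ ∈ P.new v t) {ℓ : ℕ} (hℓ : ℓ ≤ v.length)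
    (h : κ ∈ P.new (anc ℓ v) t) : ℓ = v.length :=
  P.new_unique hℓ le_rfl h (by rwa [anc_self])

/-- any function with the recursion of `stt` is characterised by `StIff` -/
theorem StIff.of_rec {t : ℕ} {st : X → Node → Option Node}
    (h0 : ∀ κ, st κ [] = if P.mem t κ [] then some [] else none)
    (h1 : ∀ κ c v, st κ (c :: v) = if P.mem t κ (c :: v) then
      (if κ ∈ P.new (c :: v) t then some (c :: v) else st κ v) else none) : P.StIff t st := by
  intro κ v w
  induction v with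
  | nil =>
    rw [h0]
    constructor
    · intro h
      split_ifs at h with h2
      · obtain ⟨ℓ, hℓ, hn⟩ := P.exists_new h2
        refine ⟨h2, ℓ, hℓ, ?_, hn⟩
        have h3 : ([] : Node) = w := by simpa using h
        rw [← h3]
        simp [anc]
    · rintro ⟨h2, ℓ, _, hw, _⟩
      rw [if_pos h2, hw]
      simp [anc]
  | cons c v ih =>
    rw [h1]
    constructor
    · intro h
      split_ifs at h with h2 h3
      · have h4 : c :: v = w := by simpa using h
        refine ⟨h2, (c :: v).length, le_rfl, ?_, ?_⟩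
        · rw [anc_self, h4]
        · rwa [anc_self]
      · obtain ⟨_, ℓ, hℓ, hw, hn⟩ := ih.mp h
        refine ⟨h2, ℓ, hℓ.trans (by simp), ?_, ?_⟩
        · rw [anc_cons c hℓ, hw]
        · rwa [anc_cons c hℓ]
    · rintro ⟨h2, ℓ, hℓ, hw, hn⟩
      rw [if_pos h2]
      split_ifs with h3
      · have h4 := P.new_of_len h3 hℓ hn
        rw [hw, h4, anc_self]
      · have h4 : ℓ ≤ v.length := by
          rcases hℓ.eq_or_lt with h5 | h5
          · rw [h5, anc_self] at hn
            exact absurd hn h3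
          · simp only [List.length_cons] at h5
            omega
        rw [anc_cons c h4] at hn hw
        refine ih.mpr ⟨P.mem_of_cons c h2 ?_, ℓ, h4, hw, hn⟩
        exact P.act_anc h4 t (P.new_sub_act _ _ hn)

theorem stt_iff (t : ℕ) : P.StIff t (P.stt t) :=
  StIff.of_rec P (fun _ => rfl) (fun _ _ _ => rfl)

variable {P} {t : ℕ} {st : X → Node → Option Node} (h : P.StIff t st)

include h

lemma StIff.ne_none {κ : X} {v : Node} : st κ v ≠ none ↔ P.mem t κ v := by
  constructor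
  · intro h1
    obtain ⟨w, hw⟩ := Option.ne_none_iff_exists'.mp h1
    exact ((h κ v w).mp hw).1
  · intro h1 h2
    obtain ⟨ℓ, hℓ, hn⟩ := P.exists_new h1
    have h3 := (h κ v (anc ℓ v)).mpr ⟨h1, ℓ, hℓ, rfl, hn⟩
    rw [h2] at h3
    simp at h3

lemma StIff.st0 (κ : X) : st κ [] = none ∨ st κ [] = some [] := by
  rcases h1 : st κ [] with _ | w
  · exact Or.inl rfl
  · right
    obtain ⟨_, ℓ, _, hw, _⟩ := (h κ [] w).mp h1
    rw [hw]
    simp [anc]

lemma StIff.sts (κ : X) (c : Bool) (v : Node) :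
    st κ (c :: v) = none ∨ st κ (c :: v) = st κ v ∨ st κ (c :: v) = some (c :: v) := by
  rcases h1 : st κ (c :: v) with _ | w
  · exact Or.inl rfl
  · right
    obtain ⟨h2, ℓ, hℓ, hw, hn⟩ := (h κ (c :: v) w).mp h1
    rcases hℓ.eq_or_lt with h5 | h5
    · right
      rw [hw, h5, anc_self]
    · left
      have h4 : ℓ ≤ v.length := by
        simp only [List.length_cons] at h5
        omega
      rw [anc_cons c h4] at hn hw
      refine ((h κ v w).mpr ⟨P.mem_of_cons c h2 ?_, ℓ, h4, hw, hn⟩).symm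
      exact P.act_anc h4 t (P.new_sub_act _ _ hn)

/-- a letter which leaves the status of its parent leaves the stage -/
lemma StIff.leave {κ : X} {c : Bool} {v : Node} (h1 : st κ v ≠ none)
    (h2 : st κ (c :: v) ≠ st κ v) : P.mem t κ v ∧ ¬ P.mem t κ (c :: v) := by
  refine ⟨h.ne_none.mp h1, fun h3 => h2 ?_⟩
  obtain ⟨w, hw⟩ := Option.ne_none_iff_exists'.mp h1
  obtain ⟨_, ℓ, hℓ, hw2, hn⟩ := (h κ v w).mp hw
  rw [hw]
  refine (h κ (c :: v) w).mpr ⟨h3, ℓ, hℓ.trans (by simp), ?_, ?_⟩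
  · rw [anc_cons c hℓ, hw2]
  · rwa [anc_cons c hℓ]

end PD

/-- the indicator of the stage along a path drops at most once -/
lemma sum_leave_le {X : Type} [Fintype X] (P : PD X) (t : ℕ) (κ : X) (x : Node) (N : ℕ) :
    ∑ j ∈ range N, max ((if P.mem t κ (anc (j - 1) x) then (1:ℝ) else 0) -
      (if P.mem t κ (anc j x) then 1 else 0)) 0 ≤ 1 := by
  by_cases hex : ∃ i, i ≤ x.length ∧ P.mem t κ (anc i x)
  · obtain ⟨i, hi, hm⟩ := hex
    obtain ⟨ℓ, hℓ, hn⟩ := P.exists_new hm
    have hℓi : ℓ ≤ i := by rwa [length_anc hi] at hℓ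
    rw [anc_anc hℓi hi] at hn
    refine (sum_max_le (f := fun j => if P.mem t κ (anc j x) then (1:ℝ) else 0) (ℓ := ℓ)
      (fun j hj => ?_) (fun j => ?_) (fun j hj => ?_) N).trans ?_
    · rw [if_neg]
      intro hm2
      obtain ⟨ℓ', hℓ', hn'⟩ := P.exists_new hm2
      have h3 : ℓ' ≤ j := by rwa [length_anc (by omega)] at hℓ'
      rw [anc_anc h3 (by omega)] at hn'
      have := P.new_unique (by omega) (by omega) hn hn'
      omega
    · show (0:ℝ) ≤ if P.mem t κ (anc j x) then (1:ℝ) else 0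
      split_ifs
      · exact zero_le_one
      · exact le_rfl
    · show (if P.mem t κ (anc (j + 1) x) then (1:ℝ) else 0) ≤
        if P.mem t κ (anc j x) then (1:ℝ) else 0
      by_cases h4 : P.mem t κ (anc (j + 1) x)
      · rw [if_pos h4, if_pos (P.mem_anti (by omega) hn hj h4)]
      · rw [if_neg h4]
        split_ifs
        · exact zero_le_one
        · exact le_rfl
    · show (if P.mem t κ (anc ℓ x) then (1:ℝ) else 0) ≤ 1
      split_ifs
      · exact le_rfl
      · exact zero_le_one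
  · push Not at hex
    have h0 : ∀ j, (if P.mem t κ (anc j x) then (1:ℝ) else 0) = 0 := by
      intro j
      rw [if_neg]
      intro hm
      rcases Nat.lt_or_ge x.length j with h1 | h1
      · rw [anc_of_length_le h1.le, ← anc_self x] at hm
        exact hex _ le_rfl hm
      · exact hex j h1 hm
    rw [sum_eq_zero]
    · exact zero_le_one
    · intro j _
      rw [h0, h0, sub_zero, max_self]

section dat

open Vale.Agent.P091.T.H103 (Dat)

variable {ι I Q : Type} [Fintype ι] [Fintype I] [Fintype Q] {dd : Dat ι I Q}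

/-- the mass which leaves a stage is at most `1` -/
theorem S_lm_le {P : PD ι} {t : ℕ} (h : P.StIff t dd.st)
    (a0 : ∀ κ x, 0 ≤ dd.a κ x)
    (a1 : ∀ x, x.length = dd.n → ∑ κ, dd.a κ x ≤ 1) : S dd.n dd.lm [] ≤ 1 := by
  set f : ι → ℕ → Node → ℝ := fun κ j x =>
    max ((if P.mem t κ (anc (j - 1) x) then (1:ℝ) else 0) -
      (if P.mem t κ (anc j x) then 1 else 0)) 0 with hf
  have h1 : ∀ v : Node, v.length < dd.n → dd.lm v ≤
      Lf (dd.n - v.length) ((fun j x => ∑ κ, f κ j x * dd.a κ x) v.length) v := by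
    intro v hv
    show (∑ κ, if dd.st' κ v ≠ none ∧ dd.st κ v ≠ dd.st' κ v then dd.ma κ v else 0) ≤
      Lf (dd.n - v.length) (fun x => ∑ κ, f κ v.length x * dd.a κ x) v
    rw [Lf_sum]
    refine sum_le_sum fun κ _ => ?_
    have hfn : ∀ x, 0 ≤ f κ v.length x := fun x => le_max_right _ _
    split_ifs with h2
    · match v, hv, h2 with
      | [], _, h2 => exact absurd rfl h2.1
      | c :: v, hv, h2 =>
        have h3 := h.leave (κ := κ) (c := c) (v := v) h2.1 h2.2
        show Lf (dd.n - (c :: v).length) (dd.a κ) (c :: v) ≤ _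
        refine Lf_mono_below _ _ fun l _ => ?_
        have e1 : anc ((c :: v).length - 1) (l ++ c :: v) = v := by
          rw [anc_append l (by simp)]
          show anc v.length (c :: v) = v
          rw [anc_cons c le_rfl, anc_self]
        have e2 : anc (c :: v).length (l ++ c :: v) = c :: v := by
          rw [anc_append l le_rfl, anc_self]
        have e3 : f κ (c :: v).length (l ++ c :: v) = 1 := by
          simp only [hf]
          rw [e1, e2, if_pos h3.1, if_neg h3.2]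
          norm_num
        rw [e3, one_mul]
    · exact Lf_nonneg _ _ fun x _ => mul_nonneg (hfn x) (a0 κ x)
  refine (S_mono dd.n [] fun w hw => h1 w (by simpa using hw)).trans ?_
  rw [S_swap0 dd.n (fun j x => ∑ κ, f κ j x * dd.a κ x)]
  refine Lf_le_of _ _ fun x hx => ?_
  rw [sum_comm]
  refine le_trans (sum_le_sum fun κ _ => ?_) (a1 x (by simpa using hx))
  rw [← sum_mul]
  have h2 := sum_leave_le P t κ x dd.n
  exact mul_le_of_le_one_left (a0 κ x) h2

/-- the departure weight of a class -/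
lemma leaf_wt {P : PD ι} {t : ℕ} (h : P.StIff t dd.st) (m : ℕ) (i : I) (v : Node) (κ : ι)
    (y : ℝ) :
    (if m ≤ v.length ∧ κ ∈ P.new (anc m v) t ∧ P.mem t κ v then y * dd.pi (anc m v) κ i else 0)
      = dd.wt m i κ (dd.st κ v) * y := by
  rcases hs : dd.st κ v with _ | w
  · rw [if_neg]
    · show (0:ℝ) = 0 * y
      rw [zero_mul]
    · rintro ⟨_, _, h3⟩
      exact h.ne_none.mpr h3 hs
  · obtain ⟨h1, ℓ, hℓ, hw, hn⟩ := (h κ v w).mp hs
    show _ = (if w.length = m then dd.pi w κ i else 0) * y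
    have hwl : w.length = ℓ := by rw [hw, length_anc hℓ]
    by_cases hm : w.length = m
    · have hm2 : ℓ = m := by omega
      subst hm2
      rw [if_pos ⟨hℓ, hn, h1⟩, if_pos hm, ← hw, mul_comm]
    · rw [if_neg hm, zero_mul, if_neg]
      rintro ⟨h2, h3, _⟩
      exact hm (hwl.trans (P.new_unique hℓ h2 hn h3))

variable {C1 D : ℝ} {n b : ℕ} (d : ZData C1 D n b ι) (A : ℝ)
  (J : List (Un n b)) (j0 a0 : ℕ)

/-- masses of the classes -/
lemma ma_eq_av (hj0 : j0 ≤ n) (hn : dd.n = n - j0) (ha : ∀ κ x, dd.a κ x = d.a κ (ia a0 x))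
    (κ : ι) {v : Node} (hv : v.length ≤ dd.n) :
    dd.ma κ v = av n (j0 + v.length) (ia a0 v) (d.a κ) := by
  have e : dd.a κ = fun x => d.a κ (ia a0 x) := funext fun x => ha κ x
  show Lf (dd.n - v.length) (dd.a κ) v = _
  rw [e]
  exact Lf_ia a0 (d.a κ) _ (by omega)

variable {A J j0 a0} {t : ℕ} (hst : (pdZ d A J j0 a0).StIff t dd.st)
  (hn : dd.n = n - j0) (ha : ∀ κ x, dd.a κ x = d.a κ (ia a0 x))
  (hpi0 : ∀ w κ i, 0 ≤ dd.pi w κ i) (hpi1 : ∀ w κ, ∑ i, dd.pi w κ i ≤ 1)

include hst hn ha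

/-- arrival and departure masses of the classes of `Dat` and of `xwG` are the same -/
lemma leaf_sum (m : Fin (n - j0)) (i : I) (v u : Node) (l : List Bool) (hu : u = l ++ v) :
    Lf (n - j0 - u.length) ((xwG d A J j0 a0 (fun κ w i => dd.pi w κ i)
      (fun κ w i => hpi0 w κ i) (fun κ w => hpi1 w κ) t false).a (m, i) v.length) u
      = ∑ κ, dd.wt m i κ (dd.st κ v) * dd.ma κ u := by
  have e1 : ∀ κ, dd.ma κ u = Lf (n - j0 - u.length) (fun x => d.a κ (ia a0 x)) u := by
    intro κ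
    have e : dd.a κ = fun x => d.a κ (ia a0 x) := funext fun x => ha κ x
    show Lf (dd.n - u.length) (dd.a κ) u = _
    rw [e, hn]
  have e2 : ∑ κ, dd.wt m i κ (dd.st κ v) * dd.ma κ u =
      Lf (n - j0 - u.length) (fun x => ∑ κ, dd.wt m i κ (dd.st κ v) * d.a κ (ia a0 x)) u := by
    rw [Lf_sum]
    refine sum_congr rfl fun κ _ => ?_
    rw [e1, Lf_smul]
  rw [e2]
  refine Lf_congr_below _ _ fun l' _ => ?_
  set x := l' ++ u with hx
  have hxv : x = (l' ++ l) ++ v := by rw [hx, hu, List.append_assoc]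
  unfold XW.a
  by_cases hm : (m : ℕ) ≤ v.length
  · have e3 : anc (m : ℕ) x = anc m v := by rw [hxv, anc_append _ hm]
    have e4 : anc v.length x = v := by rw [hxv, anc_append _ le_rfl, anc_self]
    rw [if_pos hm]
    have hN : (xwG d A J j0 a0 (fun κ w i => dd.pi w κ i) (fun κ w i => hpi0 w κ i)
        (fun κ w => hpi1 w κ) t false).N (anc m x) = (pdZ d A J j0 a0).new (anc m v) t := by
      show (pdZ d A J j0 a0).new (anc m x) t = _
      rw [e3]
    have hal : ∀ κ, (xwG d A J j0 a0 (fun κ w i => dd.pi w κ i) (fun κ w i => hpi0 w κ i)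
        (fun κ w => hpi1 w κ) t false).alive κ v.length x ↔ (pdZ d A J j0 a0).mem t κ v := by
      intro κ
      show ((pdZ d A J j0 a0).mem t κ (anc v.length x) ∧
        (false = true → (pdZ d A J j0 a0).mem t κ (anc (v.length + 1) x))) ↔ _
      rw [e4]
      exact ⟨fun h => h.1, fun h => ⟨h, fun h' => absurd h' (by decide)⟩⟩
    have e5 : ∑ κ ∈ univ.filter (fun κ => ¬ κ ∈ (pdZ d A J j0 a0).new (anc m v) t),
        dd.wt m i κ (dd.st κ v) * d.a κ (ia a0 x) = 0 := by
      refine sum_eq_zero fun κ hκ => ?_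
      rw [← leaf_wt hst m i v κ, if_neg]
      rintro ⟨_, h2, _⟩
      exact (mem_filter.mp hκ).2 h2
    have e6 : univ.filter (fun κ => κ ∈ (pdZ d A J j0 a0).new (anc m v) t)
        = (pdZ d A J j0 a0).new (anc m v) t := by
      ext κ; simp
    rw [← sum_filter_add_sum_filter_not univ
      (fun κ => κ ∈ (pdZ d A J j0 a0).new (anc m v) t)
      (fun κ => dd.wt m i κ (dd.st κ v) * d.a κ (ia a0 x)), e5, add_zero, e6]
    refine sum_congr hN fun κ hκ => ?_
    rw [← leaf_wt hst m i v κ]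
    by_cases h1 : (pdZ d A J j0 a0).mem t κ v
    · rw [if_pos ((hal κ).mpr h1), if_pos ⟨hm, hκ, h1⟩, ← e3]
      rfl
    · rw [if_neg (fun h => h1 ((hal κ).mp h)), if_neg (fun h => h1 h.2.2)]
  · rw [if_neg hm, sum_eq_zero]
    intro κ _
    rw [← leaf_wt hst m i v κ, if_neg (fun h => hm h.1)]

include hpi0 hpi1

/-- **the `x`-energy of the stage, in the form of `inst`** -/
theorem energyD (hA : 0 < A) (hC1 : 0 ≤ C1) (hD : 0 ≤ D) (ht : t < sm A C1 D)
    (ref : Node → I → ℝ) (ref0 : ∀ w i, 0 ≤ ref w i)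
    (refsum : ∀ w, w.length < n - j0 → ∑ i, ref w i ≤ 1)
    (hwt : t + 1 < sm A C1 D → ∀ κ w i, w.length < n - j0 → κ ∈ (pdZ d A J j0 a0).new w t →
      dd.pi w κ i ≤ Real.exp (th A D (t + 1)) * ref w i) :
    S dd.n (fun v => ∑ k, dd.sys.dα k v ^ 2 / dd.sys.α k v) [] ≤ 5 * th A D (t + 1) + 4 := by
  have main := energyG d A J j0 a0 (fun κ w i => dd.pi w κ i)
      (fun κ w i => hpi0 w κ i) (fun κ w => hpi1 w κ) hA hC1 hD ht false ref ref0 refsum
      (fun h κ w i => hwt h κ w i) (Q := Unit) (fun _ _ _ _ _ => 0)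
      (fun κ w i q x _ => by
        rw [norm_zero]
        exact mul_nonneg (d.a_nonneg κ _) (hpi0 w κ i))
      (fun _ _ _ => 0) (fun _ _ _ => le_rfl) (fun _ _ _ _ => le_rfl) (fun _ _ => 0)
      (fun _ _ => by rw [norm_zero]; exact zero_le_one)
  set L := (xwG d A J j0 a0 (fun κ w i => dd.pi w κ i)
      (fun κ w i => hpi0 w κ i) (fun κ w => hpi1 w κ) t false).toLeaf (Q := Unit)
      (fun _ _ _ _ _ => 0)
      (fun κ w i q x _ => by
        rw [norm_zero]
        exact mul_nonneg (d.a_nonneg κ _) (hpi0 w κ i))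
      (fun _ _ _ => 0) (fun _ _ _ => le_rfl) (fun _ _ _ _ => le_rfl) (fun _ _ => 0)
      (fun _ _ => by rw [norm_zero]; exact zero_le_one) with hL
  refine le_trans ?_ main
  refine (congrArg (fun N => S N (fun v => ∑ k, dd.sys.dα k v ^ 2 / dd.sys.α k v) []) hn).le.trans
    ?_
  refine S_mono (n - j0) [] fun v hv => le_of_eq ?_
  have hv' : v.length < n - j0 := by simpa using hv
  -- the classes of the last level carry no mass
  have hα : ∀ (m : Fin (n - j0)) (i : I), L.sys.α (m, i) v =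
      ∑ κ, dd.wt m i κ (dd.st κ v) * dd.ma κ v := fun m i =>
    leaf_sum d hst hn ha hpi0 hpi1 m i v v [] rfl
  have hα' : ∀ (m : Fin (n - j0)) (i : I) (c : Bool), L.sys.α' (m, i) (c :: v) =
      ∑ κ, dd.wt m i κ (dd.st κ v) * dd.ma κ (c :: v) := fun m i c =>
    leaf_sum d hst hn ha hpi0 hpi1 m i v (c :: v) [c] rfl
  set G : ℕ → I → ℝ := fun m i =>
    ((∑ κ, dd.wt m i κ (dd.st κ v) * dd.ma κ (true :: v) -
      ∑ κ, dd.wt m i κ (dd.st κ v) * dd.ma κ (false :: v)) / 2) ^ 2 /
      ∑ κ, dd.wt m i κ (dd.st κ v) * dd.ma κ v with hG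
  have e1 : ∑ k, dd.sys.dα k v ^ 2 / dd.sys.α k v = ∑ m ∈ range (n - j0 + 1), ∑ i, G m i := by
    rw [Fintype.sum_prod_type, ← hn]
    exact Fin.sum_univ_eq_sum_range (fun m => ∑ i, G m i) (dd.n + 1)
  have e2 : ∑ k, L.sys.dα k v ^ 2 / L.sys.α k v = ∑ m ∈ range (n - j0), ∑ i, G m i := by
    rw [Fintype.sum_prod_type]
    rw [← Fin.sum_univ_eq_sum_range (fun m => ∑ i, G m i) (n - j0)]
    refine sum_congr rfl fun m _ => sum_congr rfl fun i _ => ?_
    unfold ESys.dα
    rw [hα', hα', hα]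
  rw [e1, e2, sum_range_succ]
  have e3 : ∑ i, G (n - j0) i = 0 := by
    refine sum_eq_zero fun i _ => ?_
    have e4 : ∀ κ, dd.wt (n - j0) i κ (dd.st κ v) = 0 := by
      intro κ
      have := leaf_wt hst (n - j0) i v κ 1
      rw [if_neg (fun h => by have := h.1; omega), mul_one] at this
      exact this.symm
    simp only [hG]
    rw [sum_eq_zero (f := fun κ => dd.wt (n - j0) i κ (dd.st κ v) * dd.ma κ v)
      (fun κ _ => by rw [e4, zero_mul]), div_zero]
  rw [e3, add_zero]

end dat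

section dat2

open Vale.Agent.P091.T.H103 (Dat)

variable {ι Q : Type} [Fintype ι] [Fintype Q] {C1 D : ℝ} {n b : ℕ} (d : ZData C1 D n b ι)
  {A : ℝ} {J : List (Un n b)} {j0 a0 t : ℕ}

/-- the `x`-energy with the weights `wtZ` -/
theorem energyD_wtZ {dd : Dat ι (ZMod (2 ^ (n + b))) Q} (hst : (pdZ d A J j0 a0).StIff t dd.st)
    (hn : dd.n = n - j0) (ha : ∀ κ x, dd.a κ x = d.a κ (ia a0 x))
    (hJ : ∀ k ∈ J, IsProb k.P) (hpi : ∀ w κ i, dd.pi w κ i = wtZ d A J j0 a0 t κ w i)
    (hA : 0 < A) (hC1 : 0 ≤ C1) (hD : 0 ≤ D) (ht : t < sm A C1 D) :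
    S dd.n (fun v => ∑ k, dd.sys.dα k v ^ 2 / dd.sys.α k v) [] ≤ 5 * th A D (t + 1) + 4 := by
  refine energyD d hst hn ha (fun w κ i => ?_) (fun w κ => ?_) hA hC1 hD ht
    (refZ d j0 a0 (J := J)) (fun w i => ?_) (fun w _ => sum_refZ_le d j0 a0 hJ w)
    (fun h κ w i _ _ => ?_)
  · rw [hpi]; exact wtZ_nonneg d A j0 a0 hJ t κ w i
  · rw [sum_congr rfl fun i _ => hpi w κ i]
    exact sum_wtZ_le d A j0 a0 hJ t κ w
  · unfold refZ
    refine sum_nonneg fun s _ => ?_
    split_ifs
    · exact al_nonneg d hJ _ _ _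
    · exact le_rfl
  · rw [hpi]; exact wtZ_le_ref d A j0 a0 h hJ κ w i

/-- **the exceptional mass** -/
theorem xm_le {I : Type} [Fintype I] {dd : Dat ι I Q} (hst : (pdZ d A J j0 a0).StIff t dd.st)
    (hn : dd.n = n - j0) (ha : ∀ κ x, dd.a κ x = d.a κ (ia a0 x)) {c s0 : ℝ} {Y : Finset ℕ} {W : ℕ → ℕ → Finset ℕ}
    (hep : Epoch d A c s0 J j0 a0 Y W) (ht : t < sm A C1 D) {Exc : ι → Node → Prop}
    (hExc : ∀ κ v, v.length < dd.n → Exc κ v → 1 ≤ t ∧
      (W (j0 + v.length) (ia a0 v)).Nonempty ∧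
      Bia d (cut d.p (W (j0 + v.length) (ia a0 v))) ((1 / 2 : ℝ) ^ t) (j0 + v.length)
        (ia a0 v) κ) :
    ∀ v, v.length < dd.n → dd.xm Exc v ≤ 2 * Real.exp (-(th A D t / 2)) := by
  intro v hv
  have hpos := (Real.exp_pos (-(th A D t / 2))).le
  show (∑ κ, if dd.st κ v ≠ none ∧ Exc κ v then dd.ma κ v else 0) ≤ _
  by_cases hex : ∃ κ, Exc κ v
  · obtain ⟨κ0, h0⟩ := hex
    obtain ⟨h1, hW, _⟩ := hExc κ0 v hv h0
    obtain ⟨s, rfl⟩ : ∃ s, t = s + 1 := ⟨t - 1, by omega⟩
    have hrule := hep.rule (j0 + v.length) (ia a0 v) (by omega) (by omega)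
      (by rw [Nat.add_sub_cancel_left, ia_root]) hW (s + 1) (by omega) ht.le
    refine le_trans (sum_le_sum fun κ _ => ?_)
      (exc_mass d A J j0 a0 (v := v) (t := s) ht
        (cut d.p (W (j0 + v.length) (ia a0 v))) hrule)
    have hnn := av_nonneg (n := n) (j := j0 + v.length) (a := ia a0 v) (d.a_nonneg κ)
    by_cases h2 : dd.st κ v ≠ none ∧ Exc κ v
    · rw [if_pos h2, if_pos ⟨hst.ne_none.mp h2.1, (hExc κ v hv h2.2).2.2⟩]
      exact (ma_eq_av d j0 a0 hep.j0_le hn ha κ hv.le).le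
    · rw [if_neg h2]
      split_ifs
      · exact hnn
      · exact le_rfl
  · push Not at hex
    rw [sum_eq_zero]
    · linarith
    · intro κ _
      rw [if_neg (fun h => hex κ h.2)]

end dat2

end Vale.Agent.P091.T.H233
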