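import Vale.Agent.P091.T.H233.Act
import Vale.Agent.P091.T.H587.Leaf
import Vale.Agent.P091.LE.H219.Energy

/-!
# P091, heart block, row H6 (helper233): the Lemma-E system of one stage

From base classes with leaf masses `m κ x`, sets `N w` of classes activated at the node `w`
(each class at most once on a path), weights `wt κ w i` (list elements `i : I`) and a predicate
`alive` we build the `LeafData` of helper587 with classes `k = (ℓ, i) : Fin n × I`
(`ℓ` = level of the activation node).  Results: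
* `toLeaf` : LeafData, so `LeafData.ok` gives `ESys.Ok`;
* `removed` : the removed `x`-mass is at most `1`;
* `energy` : `S n (∑ dα² / α) ≤ 2 (2 h + h' + 2)` as soon as `wt κ w i ≤ e^h ref w i` for
  `κ ∈ N w` and `∑_i ref w i ≤ e^{h'} · mass (N w)`.
-/

set_option autoImplicit false

open Finset Vale.Agent.P091.H413 Vale.Agent.P091.T.H587
open scoped Classical

noncomputable section

namespace Vale.Agent.P091.T.H233

/-! ## leaves below a node -/

theorem Lf_mono_below (m : ℕ) {F G : Node → ℝ} (v : Node)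
    (h : ∀ l : List Bool, l.length = m → F (l ++ v) ≤ G (l ++ v)) : Lf m F v ≤ Lf m G v := by
  induction m generalizing v with
  | zero => exact h [] rfl
  | succ m ih =>
    simp only [Lf]
    have h1 := ih (true :: v) (fun l hl => by
      have := h (l ++ [true]) (by simp [hl])
      simpa using this)
    have h2 := ih (false :: v) (fun l hl => by
      have := h (l ++ [false]) (by simp [hl])
      simpa using this)
    linarith

theorem Lf_congr_below (m : ℕ) {F G : Node → ℝ} (v : Node)
    (h : ∀ l : List Bool, l.length = m → F (l ++ v) = G (l ++ v)) : Lf m F v = Lf m G v :=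
  le_antisymm (Lf_mono_below m v fun l hl => (h l hl).le)
    (Lf_mono_below m v fun l hl => (h l hl).ge)

lemma anc_append {ℓ : ℕ} {v : Node} (l : List Bool) (h : ℓ ≤ v.length) :
    anc ℓ (l ++ v) = anc ℓ v := by
  induction l with
  | nil => rfl
  | cons c l ih =>
    rw [List.cons_append, anc_cons c (by simp; omega), ih]

/-- telescoping of a function which is zero before `ℓ` and antitone afterwards -/
lemma sum_max_le {f : ℕ → ℝ} {ℓ : ℕ} (h0 : ∀ j, j < ℓ → f j = 0) (hn : ∀ j, 0 ≤ f j)
    (ha : ∀ j, ℓ ≤ j → f (j + 1) ≤ f j) (n : ℕ) :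
    ∑ j ∈ range n, max (f (j - 1) - f j) 0 ≤ f ℓ := by
  have key : ∀ n : ℕ, ∑ j ∈ range (n + 1), max (f (j - 1) - f j) 0 ≤
      (if n ≤ ℓ then 0 else f ℓ - f n) := by
    intro n
    induction n with
    | zero => simp
    | succ n ih =>
      rw [sum_range_succ]
      have e : n + 1 - 1 = n := rfl
      rw [e]
      rcases Nat.lt_trichotomy n ℓ with h | h | h
      · rw [if_pos h.le] at ih
        rw [if_pos (by omega : n + 1 ≤ ℓ), h0 n h]
        have := hn (n + 1)
        rw [max_eq_right (by linarith)]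
        linarith
      · subst h
        rw [if_pos le_rfl] at ih
        rw [if_neg (by omega : ¬ n + 1 ≤ n)]
        have := ha n le_rfl
        rw [max_eq_left (by linarith)]
        linarith
      · rw [if_neg (by omega)] at ih
        rw [if_neg (by omega)]
        have := ha n h.le
        rw [max_eq_left (by linarith)]
        linarith
  cases n with
  | zero => simpa using hn ℓ
  | succ n =>
    refine (key n).trans ?_
    split_ifs
    · exact hn ℓ
    · have := hn n; linarith

/-! ## the system of a stage -/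

/-- the `x`-side data of one stage -/
structure XW (X I : Type) [Fintype X] [Fintype I] (n : ℕ) where
  /-- mass of the base class at the leaf -/
  m : X → Node → ℝ
  m0 : ∀ κ x, 0 ≤ m κ x
  msum : ∀ x, x.length = n → ∑ κ, m κ x ≤ 1
  /-- the classes activated at the node -/
  N : Node → Finset X
  Nuniq : ∀ κ x ℓ ℓ', x.length = n → ℓ ≤ n → ℓ' ≤ n → κ ∈ N (anc ℓ x) → κ ∈ N (anc ℓ' x) →
    ℓ = ℓ'
  /-- weight of the list element `i` for a class activated at the node -/
  wt : X → Node → I → ℝ
  wt0 : ∀ κ w i, 0 ≤ wt κ w i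
  wtsum : ∀ κ w, ∑ i, wt κ w i ≤ 1
  /-- the class is used at the leaf after the modifications of the level -/
  alive : X → ℕ → Node → Prop
  alive_anti : ∀ κ x ℓ j, x.length = n → κ ∈ N (anc ℓ x) → ℓ ≤ j → alive κ (j + 1) x →
    alive κ j x

namespace XW

variable {X I Q : Type} [Fintype X] [Fintype I] [Fintype Q] {n : ℕ} (d : XW X I n)

/-- leaf mass of the class `(ℓ, i)` after the modifications of level `j` -/
def a (k : Fin n × I) (j : ℕ) (x : Node) : ℝ :=
  if (k.1 : ℕ) ≤ j then
    ∑ κ ∈ d.N (anc k.1 x), if d.alive κ j x then d.m κ x * d.wt κ (anc k.1 x) k.2 else 0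
  else 0

/-- coefficient, `γ κ w i q x` = coefficient of the base class -/
def cf (γ : X → Node → I → Q → Node → ℂ) (k : Fin n × I) (q : Q) (j : ℕ) (x : Node) : ℂ :=
  if (k.1 : ℕ) ≤ j then
    ∑ κ ∈ d.N (anc k.1 x), if d.alive κ j x then γ κ (anc k.1 x) k.2 q x else 0
  else 0

/-- mass of the classes activated on the path of the leaf -/
lemma sum_N_le (x : Node) (hx : x.length = n) (s : Finset ℕ) (hs : ∀ ℓ ∈ s, ℓ ≤ n) :
    ∑ ℓ ∈ s, ∑ κ ∈ d.N (anc ℓ x), d.m κ x ≤ 1 := by
  rw [← sum_biUnion]
  · exact (sum_le_sum_of_subset_of_nonneg (subset_univ _) fun κ _ _ => d.m0 κ x).trans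
      (d.msum x hx)
  · intro ℓ hℓ ℓ' hℓ' hne
    rw [Function.onFun, disjoint_left]
    intro κ h1 h2
    exact hne (d.Nuniq κ x ℓ ℓ' hx (hs ℓ hℓ) (hs ℓ' hℓ') h1 h2)

lemma a_nonneg (k : Fin n × I) (j : ℕ) (x : Node) : 0 ≤ d.a k j x := by
  unfold a
  split_ifs
  · refine sum_nonneg fun κ _ => ?_
    split_ifs
    · exact mul_nonneg (d.m0 _ _) (d.wt0 _ _ _)
    · exact le_rfl
  · exact le_rfl

/-- mass of the class `k` if nobody were removed -/
lemma a_le (k : Fin n × I) (j : ℕ) (x : Node) :
    d.a k j x ≤ ∑ κ ∈ d.N (anc k.1 x), d.m κ x * d.wt κ (anc k.1 x) k.2 := by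
  have h0 : 0 ≤ ∑ κ ∈ d.N (anc k.1 x), d.m κ x * d.wt κ (anc k.1 x) k.2 :=
    sum_nonneg fun κ _ => mul_nonneg (d.m0 _ _) (d.wt0 _ _ _)
  unfold a
  split_ifs
  · refine sum_le_sum fun κ _ => ?_
    split_ifs
    · exact le_rfl
    · exact mul_nonneg (d.m0 _ _) (d.wt0 _ _ _)
  · exact h0

lemma sum_full_le (x : Node) (hx : x.length = n) :
    ∑ k : Fin n × I, ∑ κ ∈ d.N (anc k.1 x), d.m κ x * d.wt κ (anc k.1 x) k.2 ≤ 1 := by
  rw [Fintype.sum_prod_type]
  have h1 : ∀ ℓ : Fin n, ∑ i : I, ∑ κ ∈ d.N (anc ℓ x), d.m κ x * d.wt κ (anc ℓ x) i ≤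
      ∑ κ ∈ d.N (anc ℓ x), d.m κ x := by
    intro ℓ
    rw [sum_comm]
    refine sum_le_sum fun κ _ => ?_
    rw [← mul_sum]
    exact mul_le_of_le_one_right (d.m0 _ _) (d.wtsum _ _)
  refine (sum_le_sum fun ℓ _ => h1 ℓ).trans ?_
  rw [Fin.sum_univ_eq_sum_range (fun ℓ => ∑ κ ∈ d.N (anc ℓ x), d.m κ x) n]
  exact d.sum_N_le x hx (range n) fun ℓ hℓ => (mem_range.mp hℓ).le

lemma a_act (k : Fin n × I) (j : ℕ) (x : Node) (h : j < (k.1 : ℕ)) : d.a k j x = 0 := by
  unfold a; rw [if_neg (by omega)]

lemma a_anti (k : Fin n × I) (j : ℕ) (x : Node) (hx : x.length = n) (h : (k.1 : ℕ) ≤ j) :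
    d.a k (j + 1) x ≤ d.a k j x := by
  unfold a
  rw [if_pos h, if_pos (by omega)]
  refine sum_le_sum fun κ hκ => ?_
  have h0 : 0 ≤ d.m κ x * d.wt κ (anc k.1 x) k.2 := mul_nonneg (d.m0 _ _) (d.wt0 _ _ _)
  by_cases h1 : d.alive κ (j + 1) x
  · rw [if_pos h1, if_pos (d.alive_anti κ x k.1 j hx hκ h h1)]
  · rw [if_neg h1]
    split_ifs
    · exact h0
    · exact le_rfl

/-- the leaf data of the stage -/
def toLeaf (γ : X → Node → I → Q → Node → ℂ)
    (hγ : ∀ κ w i q x, x.length = n → ‖γ κ w i q x‖ ≤ d.m κ x * d.wt κ w i)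
    (g : Q → ℕ → Node → ℝ) (g0 : ∀ q j y, 0 ≤ g q j y)
    (g_anti : ∀ q j y, y.length = n → g q (j + 1) y ≤ g q j y)
    (e : Fin n × I → Node → ℂ) (he : ∀ k y, ‖e k y‖ ≤ 1) : LeafData (Fin n × I) Q n where
  act k := k.1
  a := d.a
  c := d.cf γ
  g := g
  e := e
  a_nonneg := d.a_nonneg
  a_act := d.a_act
  a_sum j x hx := (sum_le_sum fun k _ => d.a_le k j x).trans (d.sum_full_le x hx)
  c_le k q j x hx := by
    unfold cf a
    split_ifs
    · refine norm_sum_le_of_le _ fun κ _ => ?_
      split_ifs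
      · exact hγ _ _ _ _ _ hx
      · simp
    · simp
  a_anti := d.a_anti
  c_jump k q j x hx h := by
    unfold cf a
    rw [if_pos h, if_pos h, if_pos (by omega : (k.1 : ℕ) ≤ j + 1),
      if_pos (by omega : (k.1 : ℕ) ≤ j + 1), ← sum_sub_distrib, ← sum_sub_distrib]
    refine norm_sum_le_of_le _ fun κ hκ => ?_
    have h3 := hγ κ (anc k.1 x) k.2 q x hx
    by_cases h1 : d.alive κ (j + 1) x
    · have h2 := d.alive_anti κ x k.1 j hx hκ h h1
      simp [h1, h2]
    · by_cases h2 : d.alive κ j x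
      · simpa [h1, h2] using h3
      · simp [h1, h2]
  g_nonneg := g0
  g_anti := g_anti
  e_le := he

section

variable (γ : X → Node → I → Q → Node → ℂ)
    (hγ : ∀ κ w i q x, x.length = n → ‖γ κ w i q x‖ ≤ d.m κ x * d.wt κ w i)
    (g : Q → ℕ → Node → ℝ) (g0 : ∀ q j y, 0 ≤ g q j y)
    (g_anti : ∀ q j y, y.length = n → g q (j + 1) y ≤ g q j y)
    (e : Fin n × I → Node → ℂ) (he : ∀ k y, ‖e k y‖ ≤ 1)

/-- the removed `x`-mass is at most `1` -/
theorem removed : S n (fun v => ∑ k, max ((d.toLeaf γ hγ g g0 g_anti e he).sys.α' k v -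
      (d.toLeaf γ hγ g g0 g_anti e he).sys.α k v) 0) [] ≤ 1 := by
  refine LeafData.removed_le _ fun x hx => ?_
  rw [sum_comm]
  refine (sum_le_sum fun k _ => ?_).trans (d.sum_full_le x hx)
  exact (sum_max_le (f := fun j => d.a k j x) (ℓ := k.1) (fun j hj => d.a_act k j x hj)
    (fun j => d.a_nonneg k j x) (fun j hj => d.a_anti k j x hx hj) n).trans (d.a_le k _ x)

end

/-- mass of the classes activated at the node -/
def bN (w : Node) : ℝ := ∑ κ ∈ d.N w, Lf (n - w.length) (d.m κ) w

lemma bN_eq (w : Node) :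
    d.bN w = Lf (n - w.length) (fun x => ∑ κ ∈ d.N (anc w.length x), d.m κ x) w := by
  unfold bN
  rw [← Lf_sum]
  refine Lf_congr_below _ _ fun l _ => ?_
  rw [anc_append l le_rfl, anc_self]

lemma bN_nonneg (w : Node) : 0 ≤ d.bN w :=
  sum_nonneg fun κ _ => Lf_nonneg _ _ fun x _ => d.m0 κ x

/-- the total activated mass is at most `1` -/
theorem S_bN_le : S n d.bN [] ≤ 1 := by
  have h1 : S n d.bN [] ≤ S n (fun w => Lf (n - w.length)
      ((fun j x => ∑ κ ∈ d.N (anc j x), d.m κ x) w.length) w) [] :=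
    S_mono n [] fun w _ => (d.bN_eq w).le
  refine h1.trans ?_
  rw [S_swap0 n (fun j x => ∑ κ ∈ d.N (anc j x), d.m κ x)]
  refine Lf_le_of _ _ fun x hx => ?_
  exact d.sum_N_le x (by simpa using hx) (range n) fun ℓ hℓ => (mem_range.mp hℓ).le

lemma log_bound {α r c b : ℝ} (hα : 0 ≤ α) (hr : 0 < r) (hc : c = Real.exp (-b) * r) :
    α * Real.log (r / α) ≤ b * α + c - α := by
  rcases hα.eq_or_lt with h0 | h0
  · rw [← h0]; simp only [zero_mul, mul_zero, zero_add, sub_zero]
    rw [hc]; positivity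
  · have h1 := Real.log_le_sub_one_of_pos (show 0 < c / α by rw [hc]; positivity)
    have h2 : Real.log (c / α) = -b + Real.log (r / α) := by
      rw [hc, mul_div_assoc, Real.log_mul (Real.exp_pos _).ne' (by positivity), Real.log_exp]
    rw [h2] at h1
    have h3 : α * (-b + Real.log (r / α)) ≤ α * (c / α - 1) :=
      mul_le_mul_of_nonneg_left h1 h0.le
    have h4 : α * (c / α - 1) = c - α := by field_simp
    nlinarith

/-- **energy of the stage** -/
theorem energy (γ : X → Node → I → Q → Node → ℂ)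
    (hγ : ∀ κ w i q x, x.length = n → ‖γ κ w i q x‖ ≤ d.m κ x * d.wt κ w i)
    (g : Q → ℕ → Node → ℝ) (g0 : ∀ q j y, 0 ≤ g q j y)
    (g_anti : ∀ q j y, y.length = n → g q (j + 1) y ≤ g q j y)
    (e : Fin n × I → Node → ℂ) (he : ∀ k y, ‖e k y‖ ≤ 1)
    {h h' : ℝ} (hh : 0 ≤ h) (hh' : 0 ≤ h') (ref : Node → I → ℝ) (ref0 : ∀ w i, 0 ≤ ref w i)
    (hwt : ∀ κ w i, w.length < n → κ ∈ d.N w → d.wt κ w i ≤ Real.exp h * ref w i)
    (hrefs : ∀ w, w.length < n → (d.N w).Nonempty → ∑ i, ref w i ≤ Real.exp h' * d.bN w) :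
    S n (fun v => ∑ k, (d.toLeaf γ hγ g g0 g_anti e he).sys.dα k v ^ 2 /
      (d.toLeaf γ hγ g g0 g_anti e he).sys.α k v) [] ≤ 2 * (2 * h + h' + 2) := by
  set L := d.toLeaf γ hγ g g0 g_anti e he with hL
  -- the reference
  set r : Fin n × I → Node → ℝ := fun k v =>
    if (k.1 : ℕ) ≤ v.length ∧ 0 < ref (anc k.1 v) k.2 then ref (anc k.1 v) k.2 else 1 with hr
  have hα : ∀ k v, L.sys.α k v = Lf (n - v.length) (d.a k v.length) v := fun _ _ => rfl
  have hα' : ∀ k v, L.sys.α' k v = Lf (n - v.length) (d.a k (v.length - 1)) v := fun _ _ => rfl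
  have α0 : ∀ k v, 0 ≤ L.sys.α k v := fun k v => Lf_nonneg _ _ fun x _ => d.a_nonneg k _ x
  have α0' : ∀ k v, 0 ≤ L.sys.α' k v := fun k v => Lf_nonneg _ _ fun x _ => d.a_nonneg k _ x
  have αsum' : ∀ v : Node, v.length ≤ n → ∑ k, L.sys.α' k v ≤ 1 := by
    intro v hv
    simp only [hα']
    rw [← Lf_sum]
    exact Lf_le_of _ _ fun x hx => L.a_sum _ x (by omega)
  -- full mass of a class
  have hfull : ∀ (k : Fin n × I) (v : Node) (j : ℕ), v.length ≤ n → (k.1 : ℕ) ≤ v.length →
      Lf (n - v.length) (d.a k j) v ≤ Lf (n - v.length)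
        (fun x => ∑ κ ∈ d.N (anc k.1 v), d.m κ x * d.wt κ (anc k.1 v) k.2) v := by
    intro k v j _ hk
    refine Lf_mono_below _ _ fun l _ => ?_
    have := d.a_le k j (l ++ v)
    rwa [anc_append l hk] at this
  have hup : ∀ (k : Fin n × I) (v : Node) (j : ℕ), v.length ≤ n → (k.1 : ℕ) ≤ v.length →
      Lf (n - v.length) (d.a k j) v ≤ Real.exp h * ref (anc k.1 v) k.2 := by
    intro k v j hv hk
    refine (hfull k v j hv hk).trans (Lf_le_of _ _ fun x hx => ?_)
    have hwn : (anc k.1 v).length < n := by rw [length_anc hk]; exact k.1.isLt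
    have e0 : 0 ≤ Real.exp h * ref (anc k.1 v) k.2 := mul_nonneg (Real.exp_pos _).le (ref0 _ _)
    calc ∑ κ ∈ d.N (anc k.1 v), d.m κ x * d.wt κ (anc k.1 v) k.2
        ≤ ∑ κ ∈ d.N (anc k.1 v), d.m κ x * (Real.exp h * ref (anc k.1 v) k.2) :=
          sum_le_sum fun κ hκ => mul_le_mul_of_nonneg_left (hwt κ _ _ hwn hκ) (d.m0 _ _)
      _ = (∑ κ ∈ d.N (anc k.1 v), d.m κ x) * (Real.exp h * ref (anc k.1 v) k.2) := by
          rw [sum_mul]
      _ ≤ 1 * (Real.exp h * ref (anc k.1 v) k.2) := by
          refine mul_le_mul_of_nonneg_right ?_ e0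
          exact (sum_le_sum_of_subset_of_nonneg (subset_univ _) fun κ _ _ => d.m0 κ x).trans
            (d.msum x (by omega))
      _ = _ := one_mul _
  have hr_le : ∀ (k : Fin n × I) (v : Node), (k.1 : ℕ) ≤ v.length →
      ref (anc k.1 v) k.2 ≤ r k v := by
    intro k v hk
    simp only [hr]
    split_ifs with h1
    · exact le_rfl
    · push Not at h1
      have := h1 hk
      linarith
  have main := LE.H219.x_energy n L.sys.α L.sys.α' r h 1 (h' + 1) hh (fun k v _ => α0 k v)
    (fun k v _ => α0' k v) αsum' (fun k v hv => ?_) (fun k v _ => ?_) (fun k c v hv => ?_)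
    (fun k c v hv => ?_) (d.removed γ hγ g g0 g_anti e he) ?_
  · refine main.trans (le_of_eq ?_)
    ring
  · exact LeafData.Lf_step (d.a k) v hv
  · simp only [hr]
    split_ifs with h1
    · exact h1.2
    · exact one_pos
  · -- arrival masses are at most `e^h r`
    rw [hα']
    have e1 : (c :: v).length - 1 = v.length := rfl
    rw [e1]
    by_cases hk : (k.1 : ℕ) ≤ v.length
    · have h1 := hup k (c :: v) v.length (by simp; omega) (by simp; omega)
      rw [anc_cons c hk] at h1
      exact h1.trans (mul_le_mul_of_nonneg_left (hr_le k v hk) (Real.exp_pos _).le)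
    · refine (Lf_le_of _ _ fun x _ => (d.a_act k _ x (by omega)).le).trans ?_
      refine mul_nonneg (Real.exp_pos _).le ?_
      simp only [hr]
      split_ifs with h1
      · exact h1.2.le
      · exact zero_le_one
  · -- modification
    rw [hα', hα]
    have e1 : (c :: v).length - 1 = v.length := rfl
    have e2 : (c :: v).length = v.length + 1 := rfl
    rw [e1]
    by_cases hk : (k.1 : ℕ) ≤ v.length
    · right
      constructor
      · refine Lf_mono _ _ fun x hx => ?_
        rw [e2]
        exact d.a_anti k v.length x (by simp at hx hv; omega) hk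
      · simp only [hr]
        rw [anc_cons c hk, e2]
        have h1 : (k.1 : ℕ) ≤ v.length + 1 := by omega
        by_cases h3 : 0 < ref (anc k.1 v) k.2
        · rw [if_pos ⟨h1, h3⟩, if_pos ⟨hk, h3⟩]
        · rw [if_neg (fun h => h3 h.2), if_neg (fun h => h3 h.2)]
    · left
      refine le_antisymm (Lf_le_of _ _ fun x _ => (d.a_act k _ x (by omega)).le) ?_
      exact Lf_nonneg _ _ fun x _ => d.a_nonneg k _ x
  · -- activation cost
    have key : ∀ v : Node, v.length < n →
        (∑ k, if v = [] ∨ L.sys.α' k v = 0 then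
          L.sys.α k v * Real.log (r k v / L.sys.α k v) else 0) ≤ (h' + 1) * d.bN v := by
      intro v hv
      rw [Fintype.sum_prod_type]
      have hz : ∀ ℓ : Fin n, ℓ ≠ ⟨v.length, hv⟩ → ∑ i : I,
          (if v = [] ∨ L.sys.α' (ℓ, i) v = 0 then
            L.sys.α (ℓ, i) v * Real.log (r (ℓ, i) v / L.sys.α (ℓ, i) v) else 0) = 0 := by
        intro ℓ hℓ
        refine sum_eq_zero fun i _ => ?_
        have hne : (ℓ : ℕ) ≠ v.length := fun h => hℓ (Fin.ext h)
        split_ifs with h1
        · have hα0 : L.sys.α (ℓ, i) v = 0 := by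
            rcases Nat.lt_or_gt_of_ne hne with h2 | h2
            · have hvne : v ≠ [] := by rintro rfl; simp at h2
              have h3 : L.sys.α' (ℓ, i) v = 0 := h1.resolve_left hvne
              refine le_antisymm (le_trans ?_ h3.le) (α0 _ _)
              rw [hα, hα']
              refine Lf_mono _ _ fun x hx => ?_
              have := d.a_anti (ℓ, i) (v.length - 1) x (by omega) (by simp; omega)
              rwa [Nat.sub_add_cancel (by omega)] at this
            · rw [hα]
              exact le_antisymm (Lf_le_of _ _ fun x _ => (d.a_act _ _ x (by simpa using h2)).le)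
                (α0 (ℓ, i) v)
          rw [hα0, zero_mul]
        · rfl
      rw [sum_eq_single (⟨v.length, hv⟩ : Fin n) (fun ℓ _ hℓ => hz ℓ hℓ) (by simp)]
      set ℓ : Fin n := ⟨v.length, hv⟩ with hℓ
      have hanc : anc (ℓ : ℕ) v = v := anc_self v
      have hle : (ℓ : ℕ) ≤ v.length := le_rfl
      rcases (d.N v).eq_empty_or_nonempty with hN | hN
      · refine (sum_nonpos fun i _ => ?_).trans (mul_nonneg (by linarith) (d.bN_nonneg v))
        have hα0 : L.sys.α (ℓ, i) v = 0 := by
          refine le_antisymm ?_ (α0 _ _)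
          rw [hα]
          refine (hfull (ℓ, i) v _ hv.le hle).trans ?_
          rw [hanc, hN]
          simp [Lf_const]
        rw [hα0]
        simp
      · have ht : ∑ i, L.sys.α (ℓ, i) v ≤ d.bN v := by
          simp only [hα]
          rw [← Lf_sum]
          unfold bN
          rw [← Lf_sum]
          refine Lf_mono_below _ _ fun l hl => ?_
          have h1 : ∀ i, d.a (ℓ, i) v.length (l ++ v) ≤
              ∑ κ ∈ d.N v, d.m κ (l ++ v) * d.wt κ v i := by
            intro i
            have := d.a_le (ℓ, i) v.length (l ++ v)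
            rwa [anc_append l hle, hanc] at this
          refine (sum_le_sum fun i _ => h1 i).trans ?_
          rw [sum_comm]
          refine sum_le_sum fun κ _ => ?_
          rw [← mul_sum]
          exact mul_le_of_le_one_right (d.m0 _ _) (d.wtsum _ _)
        have hterm : ∀ i : I, (if v = [] ∨ L.sys.α' (ℓ, i) v = 0 then
            L.sys.α (ℓ, i) v * Real.log (r (ℓ, i) v / L.sys.α (ℓ, i) v) else 0) ≤
            h' * L.sys.α (ℓ, i) v + Real.exp (-h') * ref v i := by
          intro i
          have hb0 : 0 ≤ h' * L.sys.α (ℓ, i) v + Real.exp (-h') * ref v i :=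
            add_nonneg (mul_nonneg hh' (α0 _ _)) (mul_nonneg (Real.exp_pos _).le (ref0 _ _))
          split_ifs with h1
          · by_cases h2 : 0 < ref v i
            · have h3 : r (ℓ, i) v = ref v i := by
                simp only [hr]
                rw [if_pos]
                · rw [hanc]
                · refine ⟨hle, ?_⟩
                  rw [hanc]; exact h2
              rw [h3]
              have := log_bound (α0 (ℓ, i) v) h2 (rfl : Real.exp (-h') * ref v i = _)
              linarith [α0 (ℓ, i) v]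
            · have h3 : ref v i = 0 := le_antisymm (not_lt.mp h2) (ref0 _ _)
              have h4 : L.sys.α (ℓ, i) v = 0 := by
                refine le_antisymm ?_ (α0 _ _)
                rw [hα]
                have := hup (ℓ, i) v v.length hv.le hle
                rw [hanc, h3, mul_zero] at this
                exact this
              rw [h4, h3]; simp
          · exact hb0
        refine (sum_le_sum fun i _ => hterm i).trans ?_
        rw [sum_add_distrib, ← mul_sum, ← mul_sum]
        have h5 : Real.exp (-h') * ∑ i, ref v i ≤ d.bN v := by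
          calc Real.exp (-h') * ∑ i, ref v i ≤ Real.exp (-h') * (Real.exp h' * d.bN v) :=
                mul_le_mul_of_nonneg_left (hrefs v hv hN) (Real.exp_pos _).le
            _ = d.bN v := by rw [← mul_assoc, ← Real.exp_add]; simp
        have h6 : h' * ∑ i, L.sys.α (ℓ, i) v ≤ h' * d.bN v := mul_le_mul_of_nonneg_left ht hh'
        linarith
    refine (S_mono n [] fun v hv => key v (by simpa using hv)).trans ?_
    rw [S_smul]
    have := d.S_bN_le
    have h7 : (h' + 1) * S n d.bN [] ≤ (h' + 1) * 1 := mul_le_mul_of_nonneg_left this (by linarith)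
    linarith

end XW

/-! ## the stages of the process -/

lemma anc_of_length_le {ℓ : ℕ} {x : Node} (h : x.length ≤ ℓ) : anc ℓ x = x := by
  unfold anc
  rw [Nat.sub_eq_zero_of_le h, List.drop_zero]

lemma anc_succ {i : ℕ} {x : Node} (h : i < x.length) : ∃ c : Bool, anc (i + 1) x = c :: anc i x := by
  induction x with
  | nil => simp at h
  | cons c x ih =>
    rcases Nat.lt_or_ge i x.length with h1 | h1
    · obtain ⟨c', hc⟩ := ih h1
      exact ⟨c', by rw [anc_cons c h1, anc_cons c h1.le, hc]⟩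
    · have h2 : i = x.length := by simp at h; omega
      refine ⟨c, ?_⟩
      rw [h2, anc_of_length_le (by simp), anc_cons c le_rfl, anc_self]

namespace PD

variable {X I : Type} [Fintype X] [Fintype I] (d : PD X)

lemma new_sub_act (v : Node) (j : ℕ) : d.new v j ⊆ d.act v j := by
  rw [d.act_stage]
  exact fun _ h => mem_union_right _ h

/-- inheritance along the path of a leaf -/
lemma mem_anti {κ : X} {x : Node} {ℓ i j : ℕ} (hx : ℓ ≤ x.length) (h : κ ∈ d.new (anc ℓ x) j)
    (hi : ℓ ≤ i) (h1 : d.mem j κ (anc (i + 1) x)) : d.mem j κ (anc i x) := by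
  rcases Nat.lt_or_ge i x.length with h2 | h2
  · obtain ⟨c, hc⟩ := anc_succ h2
    rw [hc] at h1
    refine d.mem_of_cons c h1 ?_
    have h3 := d.act_anc (v := anc i x) (ℓ := ℓ) (by rw [length_anc h2.le]; exact hi) j
    rw [anc_anc hi h2.le] at h3
    exact h3 (d.new_sub_act _ _ h)
  · rw [anc_of_length_le (by omega)] at h1 ⊢
    exact h1

/-- the system of stage `j`; `look = true`: with look-ahead removal (the part of a class in a child
where it leaves the stage is removed already at the parent). -/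
def toXW (n j : ℕ) (look : Bool) (m : X → Node → ℝ) (m0 : ∀ κ x, 0 ≤ m κ x)
    (msum : ∀ x, x.length = n → ∑ κ, m κ x ≤ 1) (wt : X → Node → I → ℝ)
    (wt0 : ∀ κ w i, 0 ≤ wt κ w i) (wtsum : ∀ κ w, ∑ i, wt κ w i ≤ 1) : XW X I n where
  m := m
  m0 := m0
  msum := msum
  N w := d.new w j
  Nuniq _ _ _ _ hx h h' h1 h2 := by
    exact
    d.new_unique (by rw [hx]; exact h) (by rw [hx]; exact h') h1 h2
  wt := wt
  wt0 := wt0
  wtsum := wtsum
  alive κ i x := d.mem j κ (anc i x) ∧ (look = true → d.mem j κ (anc (i + 1) x))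
  alive_anti κ x ℓ i _ h hi h1 := by
    rcases Nat.lt_or_ge x.length ℓ with h2 | h2
    · rw [anc_of_length_le h2.le] at h
      have e1 : anc i x = x := anc_of_length_le (by omega)
      have e2 : anc (i + 1) x = x := anc_of_length_le (by omega)
      rw [e1, e2]
      rw [e2] at h1
      exact ⟨h1.1, fun _ => h1.1⟩
    · exact ⟨d.mem_anti h2 h hi h1.1, fun _ => h1.1⟩

/-- every present class is counted in exactly one stage -/
lemma sum_stages {J : ℕ} (hJ : ∀ W v, d.rule J W v = W) (v : Node) (F : X → ℂ) :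
    ∑ κ ∈ d.pres v, F κ = ∑ j ∈ range (J + 1), ∑ κ ∈ d.pres v, if d.mem j κ v then F κ else 0 := by
  rw [sum_comm]
  refine sum_congr rfl fun κ hκ => ?_
  obtain ⟨j, hj, hm⟩ := d.exists_stage hJ hκ
  rw [sum_eq_single j]
  · rw [if_pos hm]
  · intro i _ hi
    rw [if_neg fun h => hi (d.stage_unique h hm)]
  · intro h
    exact absurd (mem_range.mpr (by omega)) h

end PD

end Vale.Agent.P091.T.H233
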