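import Vale.Agent.P091.T.Defs
import Vale.Agent.P091.T.H350.Bridge
import Vale.Agent.P091.T.H522.Round
import Vale.Agent.P091.T.H233.Stage

/-!
# P091, heart block, row E1-A (helper233): the stages of an epoch, over `T/Defs`

Relative tree of the epoch with root `(j0, a0)`: the node `v : List Bool` is the node
`(j0 + |v|, ia a0 v)`, `ia a0 v = a0 * 2 ^ |v| + ix v`.  Process of `Act.lean` with the rule of the
architect: at a node all waiting explained classes (`xp ≥ 3/8`, threshold `th A D (t+1)`) are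
activated if their mass is at least `exp (-th/2)`; the last stage `t = sm - 1` activates everything.
Stage index `t = s - 1`, `s` = the stage number of `Rule`.
-/

set_option autoImplicit false

open Finset Vale.Agent.P091.H413 Vale.Agent.P091.T.H587 Vale.Agent.P091.T.H350
open Vale.Agent.P091.Spec Vale.Agent.P065.Ent
open scoped Classical

noncomputable section

namespace Vale.Agent.P091.T.H233

section rel

/-- index of the node `v` of the tree below `(j0, a0)` in its level -/
def ia (a0 : ℕ) (v : Node) : ℕ := a0 * 2 ^ v.length + ix v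

lemma ia_nil (a0 : ℕ) : ia a0 [] = a0 := by simp [ia]

lemma ia_true (a0 : ℕ) (v : Node) : ia a0 (true :: v) = 2 * ia a0 v := by
  unfold ia; rw [List.length_cons, pow_succ, ix_true]; ring

lemma ia_false (a0 : ℕ) (v : Node) : ia a0 (false :: v) = 2 * ia a0 v + 1 := by
  unfold ia; rw [List.length_cons, pow_succ, ix_false]; ring

lemma ia_div (a0 : ℕ) (c : Bool) (v : Node) : ia a0 (c :: v) / 2 = ia a0 v := by
  cases c
  · rw [ia_false]; omega
  · rw [ia_true]; omega

lemma ia_root (a0 : ℕ) (v : Node) : ia a0 v / 2 ^ v.length = a0 := by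
  unfold ia
  rw [mul_comm, Nat.mul_add_div (by positivity), Nat.div_eq_of_lt (ix_lt v), add_zero]

lemma ia_lt {a0 j0 : ℕ} (h : a0 < 2 ^ j0) (v : Node) : ia a0 v < 2 ^ (j0 + v.length) := by
  unfold ia
  have h1 := ix_lt v
  calc a0 * 2 ^ v.length + ix v < a0 * 2 ^ v.length + 2 ^ v.length := by omega
    _ = (a0 + 1) * 2 ^ v.length := by ring
    _ ≤ 2 ^ j0 * 2 ^ v.length := Nat.mul_le_mul_right _ h
    _ = 2 ^ (j0 + v.length) := by rw [pow_add]

/-- the absolute node -/
lemma ix_abs {a0 j0 : ℕ} (h : a0 < 2 ^ j0) (v : Node) : ix (v ++ nodeOf j0 a0) = ia a0 v := by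
  induction v with
  | nil => simp [ia_nil, ix_nodeOf h]
  | cons c v ih =>
    cases c
    · rw [List.cons_append, ix_false, ih, ia_false]
    · rw [List.cons_append, ix_true, ih, ia_true]

/-- averages are martingales -/
lemma av_ia {n j0 : ℕ} (a0 : ℕ) (F : ℕ → ℝ) {v : Node} (hv : v.length + j0 < n) :
    av n (j0 + v.length) (ia a0 v) F = (av n (j0 + (true :: v).length) (ia a0 (true :: v)) F +
      av n (j0 + (false :: v).length) (ia a0 (false :: v)) F) / 2 := by
  rw [av_mart (by omega), ia_true, ia_false]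
  rfl

/-- averages over the leaves = averages over the integer node -/
lemma Lf_ia {n j0 : ℕ} (a0 : ℕ) (F : ℕ → ℝ) (m : ℕ) {v : Node} (hv : m + v.length + j0 = n) :
    Lf m (fun x => F (ia a0 x)) v = av n (j0 + v.length) (ia a0 v) F := by
  induction m generalizing v with
  | zero =>
    have : j0 + v.length = n := by omega
    rw [this, av_leaf]
    rfl
  | succ m ih =>
    simp only [Lf]
    rw [ih (v := true :: v) (by simp only [List.length_cons]; omega),
      ih (v := false :: v) (by simp only [List.length_cons]; omega)]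
    exact (av_ia a0 F (v := v) (by omega)).symm

/-- a leaf of a node lies in the node of its parent -/
lemma mem_nd_of_cons {n j0 : ℕ} (a0 : ℕ) {c : Bool} {v : Node} (hv : v.length + j0 < n) {i : ℕ}
    (hi : i ∈ nd n (j0 + (c :: v).length) (ia a0 (c :: v))) :
    i ∈ nd n (j0 + v.length) (ia a0 v) := by
  rw [nd_split (by omega : j0 + v.length < n), mem_union]
  cases c
  · right; rwa [← ia_false]
  · left; rwa [← ia_true]

end rel

/-! ## the law of the list -/

lemma lawR_prob {n b : ℕ} {J : List (Un n b)} (hJ : ∀ k ∈ J, IsProb k.P) : IsProb (lawR J) := by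
  induction J with
  | nil =>
    constructor
    · intro r
      unfold lawR
      split_ifs
      · exact zero_le_one
      · exact le_rfl
    · unfold lawR
      simp
  | cons k J ih =>
    have hk := hJ k (by simp)
    have h := ih fun k' hk' => hJ k' (by simp [hk'])
    constructor
    · intro r
      unfold lawR
      exact sum_nonneg fun s _ => mul_nonneg (hk.nonneg s) (h.nonneg _)
    · unfold lawR
      rw [sum_comm]
      have h1 : ∀ s : ZMod (2 ^ (n + b)), ∑ r, k.P s * lawR J (r - s) = k.P s := by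
        intro s
        rw [← mul_sum, Fintype.sum_equiv (Equiv.subRight s) (fun r => lawR J (r - s))
          (fun r => lawR J r) (fun r => rfl), h.sum, mul_one]
      rw [sum_congr rfl fun s _ => h1 s, hk.sum]

lemma pj_nonneg {n b : ℕ} {J : List (Un n b)} (hJ : ∀ k ∈ J, IsProb k.P) (j : ℕ)
    (s : ZMod (2 ^ (n + b - j))) : 0 ≤ pj J j s := Pr_nonneg (lawR_prob hJ) _ _

lemma sum_pj {n b : ℕ} {J : List (Un n b)} (hJ : ∀ k ∈ J, IsProb k.P) (j : ℕ) :
    ∑ s : ZMod (2 ^ (n + b - j)), pj J j s = 1 := by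
  unfold pj Pr
  rw [sum_comm]
  refine Eq.trans (sum_congr rfl fun r _ => ?_) (lawR_prob hJ).sum
  rw [sum_eq_single (rd n b j r)]
  · rw [if_pos rfl]
  · intro s _ hs
    rw [if_neg (fun h => hs h.symm)]
  · intro h
    exact absurd (mem_univ _) h

lemma sum_pj_sub {n b : ℕ} {J : List (Un n b)} (hJ : ∀ k ∈ J, IsProb k.P) (j : ℕ)
    (c : ZMod (2 ^ (n + b - j))) : ∑ s : ZMod (2 ^ (n + b - j)), pj J j (s - c) = 1 := by
  rw [Fintype.sum_equiv (Equiv.subRight c) (fun s => pj J j (s - c)) (fun s => pj J j s)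
    (fun s => rfl), sum_pj hJ]

section proc

variable {C1 D : ℝ} {n b : ℕ} {ι : Type} [Fintype ι] (d : ZData C1 D n b ι) (A : ℝ)
  (J : List (Un n b)) (j0 a0 : ℕ)

/-- explained at the stage `t` (threshold `th A D (t+1)`) -/
def Expl (t : ℕ) (v : Node) (κ : ι) : Prop :=
  ¬ Unx d J (th A D (t + 1)) (j0 + v.length) (ia a0 v) κ

/-- no weight of the class in the node (or in an ancestor inside the epoch) -/
def Gone (κ : ι) (v : Node) : Prop :=
  ∃ m, m ≤ v.length ∧ ((v.drop m).length + j0 ≤ n) ∧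
    ∀ i ∈ nd n (j0 + (v.drop m).length) (ia a0 (v.drop m)), d.A κ i = 0

/-- the local rule of the stage `t` -/
def ruleZ (t : ℕ) (W : Finset ι) (v : Node) : Finset ι :=
  if t + 1 < sm A C1 D then
    if Real.exp (-(th A D (t + 1) / 2)) ≤
        ∑ κ ∈ W.filter (Expl d A J j0 a0 t v), av n (j0 + v.length) (ia a0 v) (d.a κ) then
      W.filter (Expl d A J j0 a0 t v)
    else ∅
  else W

/-- the activation process of the epoch -/
def pdZ : PD ι where
  st κ v := d.js κ + 3 ≤ j0 + v.length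
  gone κ v := Gone d j0 a0 κ v
  rule := ruleZ d A J j0 a0
  rule_sub t W v := by
    unfold ruleZ
    split_ifs
    · exact filter_subset _ _
    · exact empty_subset _
    · exact Subset.refl _
  st_mono κ v c h := by rw [List.length_cons]; omega
  gone_mono κ v c h := by
    obtain ⟨m, h1, h2, h3⟩ := h
    exact ⟨m + 1, by simp; omega, by simpa using h2, by simpa using h3⟩

lemma not_gone {κ : ι} {v : Node} (hv : v.length + j0 ≤ n)
    (h : ¬ (pdZ d A J j0 a0).gone κ v) :
    ∃ i ∈ nd n (j0 + v.length) (ia a0 v), d.A κ i ≠ 0 := by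
  by_contra hc
  push Not at hc
  exact h ⟨0, Nat.zero_le _, by simpa using hv, by simpa using hc⟩

lemma mem_nd_drop {v : Node} (hv : v.length + j0 ≤ n) {i : ℕ}
    (hi : i ∈ nd n (j0 + v.length) (ia a0 v)) {m : ℕ} (hm : m ≤ v.length) :
    i ∈ nd n (j0 + (v.drop m).length) (ia a0 (v.drop m)) := by
  induction m generalizing v with
  | zero => simpa using hi
  | succ m ih =>
    match v with
    | [] => simp at hm
    | c :: v =>
      rw [List.drop_succ_cons]
      simp only [List.length_cons] at hv hm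
      exact ih (by omega) (mem_nd_of_cons a0 (by omega) hi) (by omega)

lemma gone_iff {κ : ι} {v : Node} (hv : v.length + j0 ≤ n) :
    (pdZ d A J j0 a0).gone κ v ↔ ∀ i ∈ nd n (j0 + v.length) (ia a0 v), d.A κ i = 0 := by
  constructor
  · rintro ⟨m, h1, h2, h3⟩ i hi
    exact h3 i (mem_nd_drop j0 a0 hv hi h1)
  · intro h
    by_contra hc
    obtain ⟨i, h1, h2⟩ := not_gone d A J j0 a0 hv hc
    exact h2 (h i h1)

/-- a present class satisfies the floor -/
lemma floor_pres {κ : ι} {v : Node} (hv : v.length + j0 ≤ n)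
    (h : κ ∈ (pdZ d A J j0 a0).pres v) :
    Real.exp (-(C1 * D)) ≤ av n (j0 + v.length) (ia a0 v) (d.a κ) := by
  obtain ⟨h1, h2⟩ := (PD.mem_pres _).mp h
  obtain ⟨i, hi, hA⟩ := not_gone d A J j0 a0 hv h2
  have h3 : d.js κ + 3 ≤ j0 + v.length := h1
  have h4 := d.floor κ i hA (j0 + v.length) (by omega) (by omega)
  rwa [mem_nd.mp hi] at h4

lemma rule_last (W : Finset ι) (v : Node) : (pdZ d A J j0 a0).rule (sm A C1 D - 1) W v = W := by
  show ruleZ d A J j0 a0 (sm A C1 D - 1) W v = W
  unfold ruleZ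
  rw [if_neg (by omega)]

lemma sm_pos : 0 < sm A C1 D := Nat.succ_pos _

/-- every present class is counted in exactly one stage `t < sm` -/
theorem sum_stagesZ (v : Node) (F : ι → ℂ) :
    ∑ κ ∈ (pdZ d A J j0 a0).pres v, F κ = ∑ t ∈ range (sm A C1 D),
      ∑ κ ∈ (pdZ d A J j0 a0).pres v, if (pdZ d A J j0 a0).mem t κ v then F κ else 0 := by
  have h := (pdZ d A J j0 a0).sum_stages (J := sm A C1 D - 1)
    (fun W v => rule_last d A J j0 a0 W v) v F
  have h1 : sm A C1 D - 1 + 1 = sm A C1 D := Nat.sub_add_cancel (sm_pos A)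
  rwa [h1] at h

lemma st_anc {κ : ι} {v : Node} {ℓ : ℕ} (h : ℓ ≤ v.length)
    (h1 : (pdZ d A J j0 a0).st κ (anc ℓ v)) : (pdZ d A J j0 a0).st κ v := by
  show d.js κ + 3 ≤ j0 + v.length
  have h2 : d.js κ + 3 ≤ j0 + (anc ℓ v).length := h1
  rw [length_anc h] at h2
  omega

lemma mem_pres_of_mem {κ : ι} {v : Node} {t : ℕ} (h : (pdZ d A J j0 a0).mem t κ v) :
    κ ∈ (pdZ d A J j0 a0).pres v := by
  obtain ⟨ℓ, h1, h2⟩ := (pdZ d A J j0 a0).exists_new h
  refine (PD.mem_pres _).mpr ⟨?_, h.2.2⟩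
  have h3 := ((pdZ d A J j0 a0).new_spec h2).1
  exact st_anc d A J j0 a0 h1 ((PD.mem_pres _).mp h3).1

/-- no stage after the last one -/
lemma not_mem_of_ge {κ : ι} {v : Node} {t : ℕ} (ht : sm A C1 D ≤ t) :
    ¬ (pdZ d A J j0 a0).mem t κ v := by
  intro h
  obtain ⟨j, hj, hm⟩ := (pdZ d A J j0 a0).exists_stage (J := sm A C1 D - 1)
    (fun W v => rule_last d A J j0 a0 W v) (mem_pres_of_mem d A J j0 a0 h)
  have := (pdZ d A J j0 a0).stage_unique h hm
  have h2 := sm_pos (C1 := C1) (D := D) A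
  omega

/-- a class of stage `t+1` is unexplained for the threshold `th (t+1)`, or it is explained and
the explained waiting classes have small mass -/
lemma mem_succ {κ : ι} {v : Node} {t : ℕ} (ht : t + 1 < sm A C1 D)
    (h : (pdZ d A J j0 a0).mem (t + 1) κ v) :
    Unx d J (th A D (t + 1)) (j0 + v.length) (ia a0 v) κ ∨
    (κ ∈ ((pdZ d A J j0 a0).Wt v t).filter (Expl d A J j0 a0 t v) ∧
      ∑ κ ∈ ((pdZ d A J j0 a0).Wt v t).filter (Expl d A J j0 a0 t v),
        av n (j0 + v.length) (ia a0 v) (d.a κ) < Real.exp (-(th A D (t + 1) / 2))) := by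
  obtain ⟨h1, h2⟩ := (pdZ d A J j0 a0).waiting_of_mem h (mem_pres_of_mem d A J j0 a0 h)
  by_cases h3 : Unx d J (th A D (t + 1)) (j0 + v.length) (ia a0 v) κ
  · exact Or.inl h3
  · right
    have h4 : κ ∈ ((pdZ d A J j0 a0).Wt v t).filter (Expl d A J j0 a0 t v) :=
      mem_filter.mpr ⟨h1, h3⟩
    refine ⟨h4, ?_⟩
    by_contra hc
    push Not at hc
    apply h2
    show κ ∈ ruleZ d A J j0 a0 t ((pdZ d A J j0 a0).Wt v t) v
    unfold ruleZ
    rw [if_pos ht, if_pos hc]
    exact h4

/-- **the exceptional mass**: the biased classes of the stage `t+1` -/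
theorem exc_mass {v : Node} {t : ℕ} (ht : t + 1 < sm A C1 D) (q : ℕ → ℝ)
    (hrule : ubm d J q (th A D (t + 1)) ((1 / 2 : ℝ) ^ (t + 1)) (j0 + v.length) (ia a0 v) ≤
      Real.exp (-(th A D (t + 1) / 2))) :
    (∑ κ, if (pdZ d A J j0 a0).mem (t + 1) κ v ∧
        Bia d q ((1 / 2 : ℝ) ^ (t + 1)) (j0 + v.length) (ia a0 v) κ then
      av n (j0 + v.length) (ia a0 v) (d.a κ) else 0) ≤ 2 * Real.exp (-(th A D (t + 1) / 2)) := by
  have hAV : ∀ κ, 0 ≤ av n (j0 + v.length) (ia a0 v) (d.a κ) := fun κ => av_nonneg (d.a_nonneg κ)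
  set E := ((pdZ d A J j0 a0).Wt v t).filter (Expl d A J j0 a0 t v) with hE
  set B : ι → ℝ := fun κ => av n (j0 + v.length) (ia a0 v) (d.a κ) with hB
  by_cases hs : ∑ κ ∈ E, B κ < Real.exp (-(th A D (t + 1) / 2))
  · have h1 : (∑ κ, if (pdZ d A J j0 a0).mem (t + 1) κ v ∧
        Bia d q ((1 / 2 : ℝ) ^ (t + 1)) (j0 + v.length) (ia a0 v) κ then B κ else 0) ≤
        ubm d J q (th A D (t + 1)) ((1 / 2 : ℝ) ^ (t + 1)) (j0 + v.length) (ia a0 v) +
          ∑ κ ∈ E, B κ := by
      have h2 : ∑ κ ∈ E, B κ = ∑ κ, if κ ∈ E then B κ else 0 := by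
        rw [← sum_filter]
        congr 1
        ext κ
        simp
      rw [h2]
      unfold ubm
      rw [← sum_add_distrib]
      refine sum_le_sum fun κ _ => ?_
      have hA' := hAV κ
      have h5 : (0:ℝ) ≤ if κ ∈ E then B κ else 0 := by
        split_ifs
        · exact hA'
        · exact le_rfl
      have h6 : (0:ℝ) ≤ if Unx d J (th A D (t + 1)) (j0 + v.length) (ia a0 v) κ ∧
          Bia d q ((1 / 2 : ℝ) ^ (t + 1)) (j0 + v.length) (ia a0 v) κ then
          av n (j0 + v.length) (ia a0 v) (d.a κ) else 0 := by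
        split_ifs
        · exact hA'
        · exact le_rfl
      by_cases h3 : (pdZ d A J j0 a0).mem (t + 1) κ v ∧
        Bia d q ((1 / 2 : ℝ) ^ (t + 1)) (j0 + v.length) (ia a0 v) κ
      · rw [if_pos h3]
        rcases mem_succ d A J j0 a0 ht h3.1 with h4 | h4
        · rw [if_pos ⟨h4, h3.2⟩]
          simp only [hB]
          simp only [hB] at h5
          linarith
        · rw [if_pos h4.1]
          linarith
      · rw [if_neg h3]
        exact add_nonneg h6 h5
    linarith
  · have h1 : (∑ κ, if (pdZ d A J j0 a0).mem (t + 1) κ v ∧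
        Bia d q ((1 / 2 : ℝ) ^ (t + 1)) (j0 + v.length) (ia a0 v) κ then B κ else 0) ≤
        ubm d J q (th A D (t + 1)) ((1 / 2 : ℝ) ^ (t + 1)) (j0 + v.length) (ia a0 v) := by
      unfold ubm
      refine sum_le_sum fun κ _ => ?_
      have hA' := hAV κ
      by_cases h3 : (pdZ d A J j0 a0).mem (t + 1) κ v ∧
        Bia d q ((1 / 2 : ℝ) ^ (t + 1)) (j0 + v.length) (ia a0 v) κ
      · rw [if_pos h3]
        rcases mem_succ d A J j0 a0 ht h3.1 with h4 | h4
        · rw [if_pos ⟨h4, h3.2⟩]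
        · exact absurd h4.2 hs
      · rw [if_neg h3]
        split_ifs
        · exact hA'
        · exact le_rfl
    have := (Real.exp_pos (-(th A D (t + 1) / 2))).le
    linarith

end proc

end Vale.Agent.P091.T.H233
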