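import Vale.Agent.P091.H413.EDefs

/-!
# P091, heart block, row H6 (helper233): the activation process of one epoch (stages)

`X` base classes.  `pres` = classes present at a node (started and not stopped), convex along the
paths.  `rule j W v ⊆ W` = the classes of the waiting set `W` that stage `j` activates at `v`
(helper124's greatest fixpoint).  `act v j` = classes activated at stage `≤ j` at `v` or above
(departure).  Waiting set of stage `j` at `v`: present, not in `act v (j-1)`, not in
`act (parent v) j`.  All facts are purely combinatorial.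
-/

set_option autoImplicit false

open Finset Vale.Agent.P091.H413
open scoped Classical

noncomputable section

namespace Vale.Agent.P091.T.H233

/-- the ancestor of level `ℓ` -/
def anc (ℓ : ℕ) (v : Node) : Node := v.drop (v.length - ℓ)

lemma anc_self (v : Node) : anc v.length v = v := by simp [anc]

lemma anc_cons {ℓ : ℕ} {v : Node} (c : Bool) (h : ℓ ≤ v.length) : anc ℓ (c :: v) = anc ℓ v := by
  unfold anc
  have : (c :: v).length - ℓ = (v.length - ℓ) + 1 := by simp; omega
  rw [this, List.drop_succ_cons]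

lemma length_anc {ℓ : ℕ} {v : Node} (h : ℓ ≤ v.length) : (anc ℓ v).length = ℓ := by
  unfold anc; simp; omega

lemma anc_anc {i j : ℕ} {v : Node} (hij : i ≤ j) (hj : j ≤ v.length) :
    anc i (anc j v) = anc i v := by
  unfold anc
  rw [List.drop_drop]
  congr 1
  simp
  omega

/-- data of the process -/
structure PD (X : Type) where
  /-- the class has started -/
  st : X → Node → Prop
  /-- the class has been stopped -/
  gone : X → Node → Prop
  /-- local activation rule of stage `j` -/
  rule : ℕ → Finset X → Node → Finset X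
  rule_sub : ∀ j W v, rule j W v ⊆ W
  st_mono : ∀ κ v c, st κ v → st κ (c :: v)
  gone_mono : ∀ κ v c, gone κ v → gone κ (c :: v)

namespace PD

variable {X : Type} [Fintype X] (d : PD X)

/-- present classes -/
def pres (v : Node) : Finset X := univ.filter fun κ => d.st κ v ∧ ¬ d.gone κ v

lemma mem_pres {κ : X} {v : Node} : κ ∈ d.pres v ↔ d.st κ v ∧ ¬ d.gone κ v := by simp [pres]

/-- the stages at one node, `P` = the sets of the parent -/
def actN (P : ℕ → Finset X) (v : Node) : ℕ → Finset X
  | 0 => P 0 ∪ d.rule 0 (d.pres v \ P 0) v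
  | j + 1 => P (j + 1) ∪ actN P v j ∪
      d.rule (j + 1) (d.pres v \ (P (j + 1) ∪ actN P v j)) v

/-- `act v j`: classes activated at stage `≤ j` at `v` or above -/
def act : Node → ℕ → Finset X
  | [] => d.actN (fun _ => ∅) []
  | c :: v => d.actN (act v) (c :: v)

/-- arrival: classes activated at stage `≤ j` strictly above `v` -/
def actP : Node → ℕ → Finset X
  | [] => fun _ => ∅
  | _ :: v => d.act v

lemma act_eq (v : Node) : d.act v = d.actN (d.actP v) v := by
  cases v <;> rfl

/-- classes of lower stages at `v` -/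
def low (v : Node) : ℕ → Finset X
  | 0 => ∅
  | j + 1 => d.act v j

/-- the waiting set of stage `j` at `v` (before the activation of stage `j`) -/
def Wt (v : Node) (j : ℕ) : Finset X := d.pres v \ (d.actP v j ∪ d.low v j)

/-- the classes activated by stage `j` at `v` -/
def new (v : Node) (j : ℕ) : Finset X := d.rule j (d.Wt v j) v

lemma act_stage (v : Node) (j : ℕ) : d.act v j = d.actP v j ∪ d.low v j ∪ d.new v j := by
  cases j with
  | zero => rw [d.act_eq]; simp [actN, low, new, Wt]
  | succ j =>
    have h : d.act v j = d.actN (d.actP v) v j := by rw [d.act_eq]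
    rw [d.act_eq]
    simp only [actN, low, new, Wt]
    rw [← h]

lemma new_sub_Wt (v : Node) (j : ℕ) : d.new v j ⊆ d.Wt v j := d.rule_sub _ _ _

lemma low_sub_act (v : Node) (j : ℕ) : d.low v j ⊆ d.act v j := by
  rw [d.act_stage]
  exact fun _ h => mem_union_left _ (mem_union_right _ h)

lemma act_mono_succ (v : Node) (j : ℕ) : d.act v j ⊆ d.act v (j + 1) := d.low_sub_act v (j + 1)

lemma act_mono {v : Node} {i j : ℕ} (h : i ≤ j) : d.act v i ⊆ d.act v j := by
  induction h with
  | refl => exact Subset.refl _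
  | step _ ih => exact ih.trans (d.act_mono_succ v _)

lemma act_cons (c : Bool) (v : Node) (j : ℕ) : d.act v j ⊆ d.act (c :: v) j := by
  rw [d.act_stage (c :: v)]
  exact fun _ h => mem_union_left _ (mem_union_left _ h)

lemma low_cons (c : Bool) (v : Node) (j : ℕ) : d.low v j ⊆ d.low (c :: v) j := by
  cases j with
  | zero => exact Subset.refl _
  | succ j => exact d.act_cons c v j

lemma act_anc {v : Node} {ℓ : ℕ} (h : ℓ ≤ v.length) (j : ℕ) : d.act (anc ℓ v) j ⊆ d.act v j := by
  induction v with
  | nil => simp at h; subst h; simp [anc]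
  | cons c v ih =>
    rcases h.eq_or_lt with h1 | h1
    · rw [h1, anc_self]
    · have h2 : ℓ ≤ v.length := by simp at h1; omega
      rw [anc_cons c h2]
      exact (ih h2).trans (d.act_cons c v j)

lemma low_anc {v : Node} {ℓ : ℕ} (h : ℓ ≤ v.length) (j : ℕ) : d.low (anc ℓ v) j ⊆ d.low v j := by
  cases j with
  | zero => exact Subset.refl _
  | succ j => exact d.act_anc h j

omit [Fintype X] in
lemma gone_anc {κ : X} {v : Node} {ℓ : ℕ} (h : ℓ ≤ v.length) (h1 : d.gone κ (anc ℓ v)) :
    d.gone κ v := by
  induction v with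
  | nil => simpa [anc] using h1
  | cons c v ih =>
    rcases h.eq_or_lt with h2 | h2
    · rwa [h2, anc_self] at h1
    · have h3 : ℓ ≤ v.length := by simp at h2; omega
      rw [anc_cons c h3] at h1
      exact d.gone_mono _ _ _ (ih h3 h1)

/-- `κ` belongs to stage `j` at `v` (departure) -/
def mem (j : ℕ) (κ : X) (v : Node) : Prop := κ ∈ d.act v j ∧ κ ∉ d.low v j ∧ ¬ d.gone κ v

lemma new_spec {κ : X} {v : Node} {j : ℕ} (h : κ ∈ d.new v j) :
    κ ∈ d.pres v ∧ κ ∉ d.actP v j ∧ κ ∉ d.low v j := by
  have := d.new_sub_Wt v j h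
  simpa [Wt] using this

lemma new_mem {κ : X} {v : Node} {j : ℕ} (h : κ ∈ d.new v j) : d.mem j κ v := by
  obtain ⟨h1, _, h3⟩ := d.new_spec h
  refine ⟨?_, h3, (d.mem_pres.mp h1).2⟩
  rw [d.act_stage]
  exact mem_union_right _ h

/-- a class is activated at most once by stage `j` on a path -/
lemma new_unique {κ : X} {v : Node} {j ℓ ℓ' : ℕ} (h : ℓ ≤ v.length) (h' : ℓ' ≤ v.length)
    (h1 : κ ∈ d.new (anc ℓ v) j) (h2 : κ ∈ d.new (anc ℓ' v) j) : ℓ = ℓ' := by
  have key : ∀ {i i' : ℕ}, i < i' → i' ≤ v.length → κ ∈ d.new (anc i v) j →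
      κ ∈ d.new (anc i' v) j → False := by
    intro i i' hii hi' hi hj
    obtain ⟨_, h4, _⟩ := d.new_spec hj
    apply h4
    have h5 : (anc i' v).length = i' := length_anc hi'
    have h6 : anc i (anc i' v) = anc i v := anc_anc hii.le hi'
    match hw : anc i' v with
    | [] => rw [hw] at h5; simp at h5; omega
    | c :: w =>
      rw [hw] at h5 h6
      have h7 : i ≤ w.length := by simp at h5; omega
      rw [anc_cons c h7] at h6
      simp only [actP]
      refine d.act_anc h7 j ?_
      rw [h6, d.act_stage]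
      exact mem_union_right _ hi
  rcases Nat.lt_trichotomy ℓ ℓ' with h3 | h3 | h3
  · exact (key h3 h' h1 h2).elim
  · exact h3
  · exact (key h3 h h2 h1).elim

/-- a class of stage `j` has been activated by stage `j` at a unique ancestor -/
lemma exists_new {κ : X} {v : Node} {j : ℕ} (h : d.mem j κ v) :
    ∃ ℓ, ℓ ≤ v.length ∧ κ ∈ d.new (anc ℓ v) j := by
  obtain ⟨h1, h2, h3⟩ := h
  induction v with
  | nil =>
    rw [d.act_stage] at h1
    simp only [actP, empty_union, mem_union] at h1
    rcases h1 with h1 | h1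
    · exact absurd h1 h2
    · exact ⟨0, le_rfl, by simpa [anc] using h1⟩
  | cons c v ih =>
    rw [d.act_stage, mem_union, mem_union] at h1
    rcases h1 with (h1 | h1) | h1
    · have h4 : κ ∉ d.low v j := fun h => h2 (d.low_cons c v j h)
      have h5 : ¬ d.gone κ v := fun h => h3 (d.gone_mono _ _ _ h)
      obtain ⟨ℓ, h6, h7⟩ := ih h1 h4 h5
      exact ⟨ℓ, h6.trans (by simp), by rwa [anc_cons c h6]⟩
    · exact absurd h1 h2
    · exact ⟨(c :: v).length, le_rfl, by rwa [anc_self]⟩

/-- membership is inherited upwards as long as the class has been activated -/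
lemma mem_of_cons {κ : X} {v : Node} {j : ℕ} (c : Bool) (h : d.mem j κ (c :: v))
    (ha : κ ∈ d.act v j) : d.mem j κ v :=
  ⟨ha, fun h' => h.2.1 (d.low_cons c v j h'), fun h' => h.2.2 (d.gone_mono _ _ _ h')⟩

/-- every present class is in exactly one of: stage `j`, a lower stage, waiting at stage `j` -/
lemma trichotomy {κ : X} {v : Node} {j : ℕ} (h : κ ∈ d.pres v) :
    d.mem j κ v ∨ κ ∈ d.low v j ∨ (κ ∈ d.Wt v j ∧ κ ∉ d.new v j) := by
  by_cases h1 : κ ∈ d.low v j
  · exact Or.inr (Or.inl h1)
  by_cases h2 : κ ∈ d.act v j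
  · exact Or.inl ⟨h2, h1, (d.mem_pres.mp h).2⟩
  · right; right
    rw [d.act_stage] at h2
    simp only [mem_union, not_or] at h2
    refine ⟨?_, h2.2⟩
    simp only [Wt, mem_sdiff, mem_union, not_or]
    exact ⟨h, h2.1.1, h2.1.2⟩

/-- a class of stage `j+1` at `v` is waiting and not activated at stage `j` -/
lemma waiting_of_mem {κ : X} {v : Node} {j : ℕ} (h : d.mem (j + 1) κ v) (hp : κ ∈ d.pres v) :
    κ ∈ d.Wt v j ∧ κ ∉ d.new v j := by
  obtain ⟨_, h2, _⟩ := h
  have h3 : κ ∉ d.act v j := h2
  rw [d.act_stage] at h3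
  simp only [mem_union, not_or] at h3
  refine ⟨?_, h3.2⟩
  simp only [Wt, mem_sdiff, mem_union, not_or]
  exact ⟨hp, h3.1.1, h3.1.2⟩

/-- if the last stage activates everything, every present class is in a stage -/
lemma exists_stage {κ : X} {v : Node} {J : ℕ} (hJ : ∀ W v, d.rule J W v = W)
    (h : κ ∈ d.pres v) : ∃ j, j ≤ J ∧ d.mem j κ v := by
  have hact : κ ∈ d.act v J := by
    rcases d.trichotomy (j := J) h with h1 | h1 | ⟨h1, h2⟩
    · exact h1.1
    · exact d.low_sub_act v J h1
    · exact absurd (by rw [new, hJ]; exact h1) h2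
  have hex : ∃ j, κ ∈ d.act v j := ⟨J, hact⟩
  refine ⟨Nat.find hex, Nat.find_min' hex hact, Nat.find_spec hex, ?_, (d.mem_pres.mp h).2⟩
  match hj : Nat.find hex with
  | 0 => simp [low]
  | j + 1 =>
    simp only [low]
    exact Nat.find_min hex (by omega)

lemma stage_unique {κ : X} {v : Node} {i j : ℕ} (hi : d.mem i κ v) (hj : d.mem j κ v) :
    i = j := by
  have key : ∀ {i j : ℕ}, i < j → d.mem i κ v → d.mem j κ v → False := by
    intro i j hij h1 h2
    obtain ⟨j', rfl⟩ : ∃ j', j = j' + 1 := ⟨j - 1, by omega⟩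
    exact h2.2.1 (d.act_mono (by omega) h1.1)
  rcases Nat.lt_trichotomy i j with h | h | h
  · exact (key h hi hj).elim
  · exact h
  · exact (key h hj hi).elim

end PD

end Vale.Agent.P091.T.H233
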