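import Vale.Agent.P091.T.H233.StageZ

/-!
# P091, heart block, row E1-A (helper233), part 2: weights and energy of a stage

* `wtZ t κ w i` : weight of the list element `i : ZMod (2^(n+b))`, `i = em s`, for the class `κ`
  activated by the stage `t` at the node `w` (explained pairs only, all pairs in the last stage);
* `xwZ` : the `x`-side of Lemma E of the stage;
* `energyZ` : `S (∑ dα²/α) ≤ 5 th A D (t+1) + 4`.
-/

set_option autoImplicit false

open Finset Vale.Agent.P091.H413 Vale.Agent.P091.T.H587 Vale.Agent.P091.T.H350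
open Vale.Agent.P091.Spec Vale.Agent.P065.Ent
open Vale.Agent.P091.T.H522 (em)
open scoped Classical

noncomputable section

namespace Vale.Agent.P091.T.H233

variable {C1 D : ℝ} {n b : ℕ} {ι : Type} [Fintype ι] (d : ZData C1 D n b ι) (A : ℝ)
  (J : List (Un n b)) (j0 a0 : ℕ)

/-- the pair `(κ, s)` is used by the stage `t` at the node `w` -/
def PExpl (t : ℕ) (w : Node) (κ : ι) (s : ZMod (2 ^ (n + b - (j0 + w.length)))) : Prop :=
  t + 1 < sm A C1 D → pj J (j0 + w.length) (s - rd n b (j0 + w.length) (d.r κ)) ≤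
    Real.exp (th A D (t + 1)) * al d J (j0 + w.length) (ia a0 w) s

/-- weight of the list element `i` -/
def wtZ (t : ℕ) (κ : ι) (w : Node) (i : ZMod (2 ^ (n + b))) : ℝ :=
  ∑ s : ZMod (2 ^ (n + b - (j0 + w.length))),
    if em (n + b) (j0 + w.length) s = i ∧ PExpl d A J j0 a0 t w κ s then
      pj J (j0 + w.length) (s - rd n b (j0 + w.length) (d.r κ)) else 0

variable {J} (hJ : ∀ k ∈ J, IsProb k.P)

include hJ in
lemma wtZ_nonneg (t : ℕ) (κ : ι) (w : Node) (i : ZMod (2 ^ (n + b))) :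
    0 ≤ wtZ d A J j0 a0 t κ w i := by
  unfold wtZ
  refine sum_nonneg fun s _ => ?_
  split_ifs
  · exact pj_nonneg hJ _ _
  · exact le_rfl

/-- sums of a function of the list element against the weights -/
lemma sum_wtZ_mul (t : ℕ) (κ : ι) (w : Node) (f : ZMod (2 ^ (n + b)) → ℝ) :
    ∑ i, wtZ d A J j0 a0 t κ w i * f i = ∑ s : ZMod (2 ^ (n + b - (j0 + w.length))),
      if PExpl d A J j0 a0 t w κ s then
        pj J (j0 + w.length) (s - rd n b (j0 + w.length) (d.r κ)) *
          f (em (n + b) (j0 + w.length) s) else 0 := by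
  unfold wtZ
  simp only [sum_mul]
  rw [sum_comm]
  refine sum_congr rfl fun s _ => ?_
  rw [sum_eq_single (em (n + b) (j0 + w.length) s)]
  · by_cases h : PExpl d A J j0 a0 t w κ s
    · rw [if_pos ⟨rfl, h⟩, if_pos h]
    · rw [if_neg (fun h' => h h'.2), if_neg h, zero_mul]
  · intro i _ hi
    rw [if_neg (fun h' => hi h'.1.symm), zero_mul]
  · intro h
    exact absurd (mem_univ _) h

lemma sum_wtZ (t : ℕ) (κ : ι) (w : Node) :
    ∑ i, wtZ d A J j0 a0 t κ w i = ∑ s : ZMod (2 ^ (n + b - (j0 + w.length))),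
      if PExpl d A J j0 a0 t w κ s then
        pj J (j0 + w.length) (s - rd n b (j0 + w.length) (d.r κ)) else 0 := by
  have := sum_wtZ_mul d A j0 a0 (J := J) t κ w (fun _ => 1)
  simpa using this

/-- total weight of an explained class = its explained mass -/
lemma sum_wtZ_eq_xp {t : ℕ} (ht : t + 1 < sm A C1 D) (κ : ι) (w : Node) :
    ∑ i, wtZ d A J j0 a0 t κ w i = xp d J (th A D (t + 1)) (j0 + w.length) (ia a0 w) κ := by
  rw [sum_wtZ]
  unfold xp
  rw [← Fintype.sum_equiv (Equiv.addLeft (rd n b (j0 + w.length) (d.r κ)))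
    (fun s => if pj J (j0 + w.length) s ≤ Real.exp (th A D (t + 1)) *
      al d J (j0 + w.length) (ia a0 w) (rd n b (j0 + w.length) (d.r κ) + s) then
      pj J (j0 + w.length) s else 0)
    (fun s => if PExpl d A J j0 a0 t w κ s then
        pj J (j0 + w.length) (s - rd n b (j0 + w.length) (d.r κ)) else 0)]
  intro s
  have h1 : Equiv.addLeft (rd n b (j0 + w.length) (d.r κ)) s -
      rd n b (j0 + w.length) (d.r κ) = s := by
    rw [Equiv.coe_addLeft, add_sub_cancel_left]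
  rw [h1]
  by_cases h : pj J (j0 + w.length) s ≤ Real.exp (th A D (t + 1)) *
      al d J (j0 + w.length) (ia a0 w) (rd n b (j0 + w.length) (d.r κ) + s)
  · rw [if_pos h, if_pos]
    intro _
    rw [h1]
    exact h
  · rw [if_neg h, if_neg]
    intro h'
    have := h' ht
    rw [h1] at this
    exact h this

include hJ in
lemma sum_wtZ_le (t : ℕ) (κ : ι) (w : Node) : ∑ i, wtZ d A J j0 a0 t κ w i ≤ 1 := by
  rw [sum_wtZ, ← sum_pj_sub hJ (j0 + w.length) (rd n b (j0 + w.length) (d.r κ))]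
  refine sum_le_sum fun s _ => ?_
  split_ifs
  · exact le_rfl
  · exact pj_nonneg hJ _ _

include hJ in
/-- in the last stage all pairs are used -/
lemma sum_wtZ_last {t : ℕ} (ht : sm A C1 D ≤ t + 1) (κ : ι) (w : Node) :
    ∑ i, wtZ d A J j0 a0 t κ w i = 1 := by
  rw [sum_wtZ, ← sum_pj_sub hJ (j0 + w.length) (rd n b (j0 + w.length) (d.r κ))]
  refine sum_congr rfl fun s _ => ?_
  rw [if_pos]
  intro h
  omega

/-- the total weight is at least `3/8` for the classes activated at the node -/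
lemma sum_wtZ_ge (hJ : ∀ k ∈ J, IsProb k.P) {t : ℕ} {κ : ι} {w : Node}
    (h : κ ∈ (pdZ d A J j0 a0).new w t) : 3 / 8 ≤ ∑ i, wtZ d A J j0 a0 t κ w i := by
  by_cases ht : t + 1 < sm A C1 D
  · rw [sum_wtZ_eq_xp d A j0 a0 ht]
    have h1 : κ ∈ ruleZ d A J j0 a0 t ((pdZ d A J j0 a0).Wt w t) w := h
    unfold ruleZ at h1
    rw [if_pos ht] at h1
    split_ifs at h1
    · have h2 := (mem_filter.mp h1).2
      unfold Expl Unx at h2
      push Not at h2
      exact h2
    · simp at h1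
  · rw [sum_wtZ_last d A j0 a0 hJ (by omega)]
    norm_num

/-- the `x`-side of Lemma E of the stage `t` -/
def xwZ (t : ℕ) (look : Bool) : XW ι (ZMod (2 ^ (n + b))) (n - j0) :=
  (pdZ d A J j0 a0).toXW (n - j0) t look (fun κ x => d.a κ (ia a0 x))
    (fun κ _ => d.a_nonneg κ _) (fun _ _ => d.a_sum _) (wtZ d A J j0 a0 t)
    (wtZ_nonneg d A j0 a0 hJ t) (sum_wtZ_le d A j0 a0 hJ t)

/-- the full list mass, carried to `ZMod (2^(n+b))` -/
def refZ (w : Node) (i : ZMod (2 ^ (n + b))) : ℝ :=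
  ∑ s : ZMod (2 ^ (n + b - (j0 + w.length))),
    if em (n + b) (j0 + w.length) s = i then al d J (j0 + w.length) (ia a0 w) s else 0

include hJ in
lemma al_nonneg (j a : ℕ) (s : ZMod (2 ^ (n + b - j))) : 0 ≤ al d J j a s := by
  unfold al
  exact sum_nonneg fun k _ => mul_nonneg (av_nonneg (d.a_nonneg k)) (pj_nonneg hJ _ _)

include hJ in
lemma sum_al_le (j a : ℕ) : ∑ s : ZMod (2 ^ (n + b - j)), al d J j a s ≤ 1 := by
  unfold al
  rw [sum_comm]
  have h1 : ∀ k : ι, ∑ s : ZMod (2 ^ (n + b - j)), av n j a (d.a k) *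
      pj J j (s - rd n b j (d.r k)) = av n j a (d.a k) := by
    intro k
    rw [← mul_sum, sum_pj_sub hJ, mul_one]
  rw [sum_congr rfl fun k _ => h1 k, ← av_sum]
  exact av_le_const fun i _ => d.a_sum i

lemma wtZ_le_ref {t : ℕ} (ht : t + 1 < sm A C1 D) (hJ : ∀ k ∈ J, IsProb k.P) (κ : ι) (w : Node)
    (i : ZMod (2 ^ (n + b))) :
    wtZ d A J j0 a0 t κ w i ≤ Real.exp (th A D (t + 1)) * refZ d j0 a0 (J := J) w i := by
  unfold wtZ refZ
  rw [mul_sum]
  refine sum_le_sum fun s _ => ?_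
  by_cases h1 : em (n + b) (j0 + w.length) s = i
  · by_cases h2 : PExpl d A J j0 a0 t w κ s
    · rw [if_pos ⟨h1, h2⟩, if_pos h1]
      exact h2 ht
    · rw [if_neg (fun h => h2 h.2), if_pos h1]
      exact mul_nonneg (Real.exp_pos _).le (al_nonneg d hJ _ _ _)
  · rw [if_neg (fun h => h1 h.1), if_neg h1, mul_zero]

lemma sum_refZ_le (hJ : ∀ k ∈ J, IsProb k.P) (w : Node) :
    ∑ i, refZ d j0 a0 (J := J) w i ≤ 1 := by
  refine le_trans (le_of_eq ?_) (sum_al_le d hJ (j0 + w.length) (ia a0 w))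
  unfold refZ
  rw [sum_comm]
  refine sum_congr rfl fun s _ => ?_
  rw [sum_eq_single (em (n + b) (j0 + w.length) s)]
  · rw [if_pos rfl]
  · intro i _ hi
    rw [if_neg (fun h => hi h.symm)]
  · intro h
    exact absurd (mem_univ _) h

/-- mass of the activated classes -/
lemma bN_xwZ (hJ : ∀ k ∈ J, IsProb k.P) (t : ℕ) (look : Bool) {w : Node}
    (hw : w.length < n - j0) : (xwZ d A j0 a0 hJ t look).bN w =
      ∑ κ ∈ (pdZ d A J j0 a0).new w t, av n (j0 + w.length) (ia a0 w) (d.a κ) := by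
  unfold XW.bN
  refine sum_congr rfl fun κ _ => ?_
  exact Lf_ia a0 (d.a κ) _ (by omega)

/-- the last threshold exceeds the floor -/
lemma th_sm (hA : 0 < A) (hC1 : 0 ≤ C1) (hD : 0 ≤ D) : (C1 + 1) * D ≤ th A D (sm A C1 D) := by
  have hll : (0:ℝ) < ll D := by
    unfold ll
    positivity
  have hx : 0 < (C1 + 1) * ll D / A := by positivity
  unfold th
  have h1 : (C1 + 1) * ll D / A ≤ (2:ℝ) ^ ((sm A C1 D : ℝ) / 4) := by
    rw [← Real.logb_le_iff_le_rpow (by norm_num) hx]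
    have h2 : 4 * Real.logb 2 ((C1 + 1) * ll D / A) ≤ (sm A C1 D : ℝ) := by
      unfold sm
      push_cast
      have := Nat.le_ceil (4 * Real.logb 2 ((C1 + 1) * ll D / A))
      linarith
    linarith
  calc (C1 + 1) * D = A * ((C1 + 1) * ll D / A) / ll D * D := by field_simp
    _ ≤ A * (2:ℝ) ^ ((sm A C1 D : ℝ) / 4) / ll D * D := by gcongr

lemma th_nonneg (hA : 0 < A) (hD : 0 ≤ D) (s : ℕ) : 0 ≤ th A D s := by
  unfold th
  positivity

/-- **E1-A, the `x`-energy of a stage** -/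
theorem energyZ (hJ : ∀ k ∈ J, IsProb k.P) (hA : 0 < A) (hC1 : 0 ≤ C1) (hD : 0 ≤ D)
    {t : ℕ} (ht : t < sm A C1 D) (look : Bool) {Q : Type} [Fintype Q]
    (γ : ι → Node → ZMod (2 ^ (n + b)) → Q → Node → ℂ)
    (hγ : ∀ κ w i q x, x.length = n - j0 →
      ‖γ κ w i q x‖ ≤ (xwZ d A j0 a0 hJ t look).m κ x * (xwZ d A j0 a0 hJ t look).wt κ w i)
    (g : Q → ℕ → Node → ℝ) (g0 : ∀ q j y, 0 ≤ g q j y)
    (g_anti : ∀ q j y, y.length = n - j0 → g q (j + 1) y ≤ g q j y)
    (e : Fin (n - j0) × ZMod (2 ^ (n + b)) → Node → ℂ) (he : ∀ k y, ‖e k y‖ ≤ 1) :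
    S (n - j0) (fun v => ∑ k,
      ((xwZ d A j0 a0 hJ t look).toLeaf γ hγ g g0 g_anti e he).sys.dα k v ^ 2 /
      ((xwZ d A j0 a0 hJ t look).toLeaf γ hγ g g0 g_anti e he).sys.α k v) []
      ≤ 5 * th A D (t + 1) + 4 := by
  by_cases h1 : t + 1 < sm A C1 D
  · -- reference = the full list mass
    have hth := th_nonneg A hA hD (t + 1)
    refine ((xwZ d A j0 a0 hJ t look).energy γ hγ g g0 g_anti e he (h := th A D (t + 1))
      (h' := th A D (t + 1) / 2) hth (by linarith) (refZ d j0 a0 (J := J))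
      (fun w i => ?_) (fun κ w i _ _ => wtZ_le_ref d A j0 a0 h1 hJ κ w i)
      (fun w hw hN => ?_)).trans (le_of_eq (by ring))
    · unfold refZ
      refine sum_nonneg fun s _ => ?_
      split_ifs
      · exact al_nonneg d hJ _ _ _
      · exact le_rfl
    · refine (sum_refZ_le d j0 a0 hJ w).trans ?_
      rw [bN_xwZ d A j0 a0 hJ t look hw]
      obtain ⟨κ, hκ⟩ := hN
      have h2 : κ ∈ (pdZ d A J j0 a0).new w t := hκ
      have h3 : Real.exp (-(th A D (t + 1) / 2)) ≤
          ∑ κ ∈ (pdZ d A J j0 a0).new w t, av n (j0 + w.length) (ia a0 w) (d.a κ) := by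
        have h4 : (pdZ d A J j0 a0).new w t =
            ruleZ d A J j0 a0 t ((pdZ d A J j0 a0).Wt w t) w := rfl
        rw [h4] at h2 ⊢
        unfold ruleZ at h2 ⊢
        rw [if_pos h1] at h2 ⊢
        split_ifs at h2 ⊢ with h5
        · exact h5
        · simp at h2
      calc (1:ℝ) = Real.exp (th A D (t + 1) / 2) * Real.exp (-(th A D (t + 1) / 2)) := by
            rw [← Real.exp_add]; simp
        _ ≤ _ := mul_le_mul_of_nonneg_left h3 (Real.exp_pos _).le
  · -- last stage: reference = own mass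
    have h2 : t + 1 = sm A C1 D := by omega
    have hth := th_sm A hA hC1 hD
    rw [← h2] at hth
    have hCD : 0 ≤ C1 * D := mul_nonneg hC1 hD
    refine ((xwZ d A j0 a0 hJ t look).energy γ hγ g g0 g_anti e he (h := C1 * D)
      (h' := 0) hCD le_rfl (fun w i => ∑ κ ∈ (pdZ d A J j0 a0).new w t,
        av n (j0 + w.length) (ia a0 w) (d.a κ) * wtZ d A J j0 a0 t κ w i)
      (fun w i => sum_nonneg fun κ _ => mul_nonneg (av_nonneg (d.a_nonneg κ))
        (wtZ_nonneg d A j0 a0 hJ t κ w i)) (fun κ w i hw hκ => ?_)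
      (fun w hw hN => ?_)).trans ?_
    · have h3 : κ ∈ (pdZ d A J j0 a0).new w t := hκ
      have h4 := floor_pres d A J j0 a0 (by omega) ((pdZ d A J j0 a0).new_spec h3).1
      have h5 : av n (j0 + w.length) (ia a0 w) (d.a κ) * wtZ d A J j0 a0 t κ w i ≤
          ∑ κ ∈ (pdZ d A J j0 a0).new w t,
            av n (j0 + w.length) (ia a0 w) (d.a κ) * wtZ d A J j0 a0 t κ w i :=
        single_le_sum (f := fun κ => av n (j0 + w.length) (ia a0 w) (d.a κ) *
          wtZ d A J j0 a0 t κ w i) (fun κ _ => mul_nonneg (av_nonneg (d.a_nonneg κ))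
          (wtZ_nonneg d A j0 a0 hJ t κ w i)) h3
      show wtZ d A J j0 a0 t κ w i ≤ _
      calc wtZ d A J j0 a0 t κ w i
          = Real.exp (C1 * D) * (Real.exp (-(C1 * D)) * wtZ d A J j0 a0 t κ w i) := by
            rw [← mul_assoc, ← Real.exp_add]; simp
        _ ≤ Real.exp (C1 * D) * (av n (j0 + w.length) (ia a0 w) (d.a κ) *
              wtZ d A J j0 a0 t κ w i) := by
            refine mul_le_mul_of_nonneg_left ?_ (Real.exp_pos _).le
            exact mul_le_mul_of_nonneg_right h4 (wtZ_nonneg d A j0 a0 hJ t κ w i)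
        _ ≤ _ := mul_le_mul_of_nonneg_left h5 (Real.exp_pos _).le
    · rw [bN_xwZ d A j0 a0 hJ t look hw, Real.exp_zero, one_mul, sum_comm]
      refine sum_le_sum fun κ _ => ?_
      rw [← mul_sum]
      exact mul_le_of_le_one_right (av_nonneg (d.a_nonneg κ)) (sum_wtZ_le d A j0 a0 hJ t κ w)
    · nlinarith

end Vale.Agent.P091.T.H233
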