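import Mathlib

/-!
# P091, heart block, row H4 (helper233): the Donsker–Varadhan block

`Y` is the sample space (only the finset `s` is used), `ν` a law, `U` the reference law
(sub-probability), letters `r` with functions `e r : Y → ℂ` satisfying a Bessel inequality with
constant `B` under `U`, phases `φ r`, `‖φ r‖ ≤ 1`.

* `dv_basic`  : `∑ ν log ((1+g)/2) ≤ D(ν‖U)` if `g ≥ 0`, `∑ U g ≤ 1`;
* `dv_set`    : one finite set `T` of letters: `(1 - 4 s_T) log |T| - log (8B) ≤ D(ν‖U)`;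
* `dv_law`    : a law `ρ` on the letters: `H(ρ) ≤ D(ν‖U) + 4 e s L + log (2L+3) + log B + 6`,
  `s = E_{r~ρ, y~ν} ‖1 - conj φ_r e_r(y)‖²`, `|letters| ≤ e^L`.
-/

set_option autoImplicit false

open Finset Real

noncomputable section

namespace Vale.Agent.P091.T.H233

variable {Y R : Type*}

/-- `a - b ≤ a log (a / b)` -/
lemma sub_le_mul_log {a b : ℝ} (ha : 0 ≤ a) (hb : 0 ≤ b) (hab : b = 0 → a = 0) :
    a - b ≤ a * log (a / b) := by
  rcases ha.eq_or_lt with h0 | h0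
  · rw [← h0]; simp [hb]
  · have hb' : 0 < b := hb.lt_of_ne fun h => h0.ne' (hab h.symm)
    have h1 := log_le_sub_one_of_pos (div_pos hb' h0)
    have h2 : log (a / b) = - log (b / a) := by rw [← log_inv, inv_div]
    rw [h2]
    have h3 : a * log (b / a) ≤ a * (b / a - 1) := mul_le_mul_of_nonneg_left h1 h0.le
    have h4 : a * (b / a - 1) = b - a := by field_simp
    linarith

/-- Donsker–Varadhan with the test function `log ((1+g)/2)` -/
lemma dv_basic {s : Finset Y} {ν U g : Y → ℝ} (hν : ∀ y ∈ s, 0 ≤ ν y) (hU : ∀ y ∈ s, 0 ≤ U y)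
    (hν1 : ∑ y ∈ s, ν y = 1) (hU1 : ∑ y ∈ s, U y ≤ 1) (hac : ∀ y ∈ s, U y = 0 → ν y = 0)
    (hg : ∀ y ∈ s, 0 ≤ g y) (hg1 : ∑ y ∈ s, U y * g y ≤ 1) :
    ∑ y ∈ s, ν y * log ((1 + g y) / 2) ≤ ∑ y ∈ s, ν y * log (ν y / U y) := by
  have key : ∀ y ∈ s, ν y - U y * ((1 + g y) / 2) ≤
      ν y * log (ν y / U y) - ν y * log ((1 + g y) / 2) := by
    intro y hy
    have hp : 0 < (1 + g y) / 2 := by have := hg y hy; positivity
    have h1 := sub_le_mul_log (a := ν y) (b := U y * ((1 + g y) / 2)) (hν y hy)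
      (mul_nonneg (hU y hy) hp.le) (fun h => by
        rcases mul_eq_zero.mp h with h | h
        · exact hac y hy h
        · exact absurd h hp.ne')
    refine h1.trans (le_of_eq ?_)
    rcases (hν y hy).eq_or_lt with h0 | h0
    · rw [← h0]; simp
    · have hU' : 0 < U y := (hU y hy).lt_of_ne fun h => h0.ne' (hac y hy h.symm)
      rw [← mul_sub, ← log_div (by positivity) hp.ne', div_div]
  have h2 := sum_le_sum key
  rw [sum_sub_distrib, sum_sub_distrib, hν1] at h2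
  have h3 : ∑ y ∈ s, U y * ((1 + g y) / 2) = (∑ y ∈ s, U y + ∑ y ∈ s, U y * g y) / 2 := by
    rw [← sum_add_distrib, sum_div]
    exact sum_congr rfl fun y _ => by ring
  rw [h3] at h2
  linarith

/-- mean square distance of the letters of `T` to their phases at the point `y` -/
def hT (T : Finset R) (e : R → Y → ℂ) (φ : R → ℂ) (y : Y) : ℝ :=
  (∑ r ∈ T, ‖1 - (starRingEnd ℂ) (φ r) * e r y‖ ^ 2) / T.card

lemma hT_nonneg (T : Finset R) (e : R → Y → ℂ) (φ : R → ℂ) (y : Y) : 0 ≤ hT T e φ y := by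
  unfold hT; positivity

/-- if the letters of `T` are close to their phases, the sum is of size `|T|` -/
lemma norm_sum_ge {T : Finset R} (hTn : T.Nonempty) (e : R → Y → ℂ) (φ : R → ℂ) (y : Y)
    (h : hT T e φ y ≤ 1 / 4) :
    (T.card : ℝ) / 2 ≤ ‖∑ r ∈ T, (starRingEnd ℂ) (φ r) * e r y‖ := by
  have hc : (0:ℝ) < T.card := by exact_mod_cast card_pos.mpr hTn
  have h1 : (∑ r ∈ T, ‖1 - (starRingEnd ℂ) (φ r) * e r y‖) ^ 2 ≤
      T.card * ∑ r ∈ T, ‖1 - (starRingEnd ℂ) (φ r) * e r y‖ ^ 2 := sq_sum_le_card_mul_sum_sq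
  have h2 : ∑ r ∈ T, ‖1 - (starRingEnd ℂ) (φ r) * e r y‖ ^ 2 ≤ T.card * (1 / 4) := by
    unfold hT at h
    rw [div_le_iff₀ hc] at h
    linarith
  have h3 : ∑ r ∈ T, ‖1 - (starRingEnd ℂ) (φ r) * e r y‖ ≤ (T.card : ℝ) / 2 := by
    refine le_of_sq_le_sq ?_ (by positivity)
    calc _ ≤ T.card * ∑ r ∈ T, ‖1 - (starRingEnd ℂ) (φ r) * e r y‖ ^ 2 := h1
      _ ≤ T.card * (T.card * (1 / 4)) := mul_le_mul_of_nonneg_left h2 hc.le
      _ = _ := by ring
  have h4 : ∑ r ∈ T, (1 - (starRingEnd ℂ) (φ r) * e r y) =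
      (T.card : ℂ) - ∑ r ∈ T, (starRingEnd ℂ) (φ r) * e r y := by
    rw [sum_sub_distrib]; simp
  have h5 : ‖∑ r ∈ T, (1 - (starRingEnd ℂ) (φ r) * e r y)‖ ≤ (T.card : ℝ) / 2 :=
    (norm_sum_le _ _).trans h3
  rw [h4] at h5
  have h6 : ‖(T.card : ℂ)‖ = (T.card : ℝ) := by simp
  have h7 := norm_sub_norm_le ((T.card : ℂ)) (∑ r ∈ T, (starRingEnd ℂ) (φ r) * e r y)
  rw [h6] at h7
  linarith

/-- one set of letters -/
theorem dv_set {s : Finset Y} {ν U : Y → ℝ} (hν : ∀ y ∈ s, 0 ≤ ν y) (hU : ∀ y ∈ s, 0 ≤ U y)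
    (hν1 : ∑ y ∈ s, ν y = 1) (hU1 : ∑ y ∈ s, U y ≤ 1) (hac : ∀ y ∈ s, U y = 0 → ν y = 0)
    {T : Finset R} (hTn : T.Nonempty) (e : R → Y → ℂ) (φ : R → ℂ) (hφ : ∀ r ∈ T, ‖φ r‖ ≤ 1)
    {B : ℝ} (hB : 1 ≤ B)
    (hBes : ∀ c : R → ℂ, ∑ y ∈ s, U y * ‖∑ r ∈ T, c r * e r y‖ ^ 2 ≤ B * ∑ r ∈ T, ‖c r‖ ^ 2) :
    (1 - 4 * ∑ y ∈ s, ν y * hT T e φ y) * log T.card - log (8 * B) ≤
      ∑ y ∈ s, ν y * log (ν y / U y) := by
  have hc : (0:ℝ) < T.card := by exact_mod_cast card_pos.mpr hTn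
  have hc1 : (1:ℝ) ≤ T.card := by exact_mod_cast card_pos.mpr hTn
  have hlog : 0 ≤ log T.card := log_nonneg hc1
  have hB0 : 0 < B := by linarith
  set g : Y → ℝ := fun y => ‖∑ r ∈ T, (starRingEnd ℂ) (φ r) * e r y‖ ^ 2 / (B * T.card) with hg
  have hg0 : ∀ y ∈ s, 0 ≤ g y := fun y _ => by simp only [hg]; positivity
  have hg1 : ∑ y ∈ s, U y * g y ≤ 1 := by
    have h1 : ∑ y ∈ s, U y * g y =
        (∑ y ∈ s, U y * ‖∑ r ∈ T, (starRingEnd ℂ) (φ r) * e r y‖ ^ 2) / (B * T.card) := by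
      rw [sum_div]
      exact sum_congr rfl fun y _ => by simp only [hg]; ring
    rw [h1, div_le_one (by positivity)]
    refine (hBes _).trans ?_
    refine mul_le_mul_of_nonneg_left ?_ hB0.le
    calc ∑ r ∈ T, ‖(starRingEnd ℂ) (φ r)‖ ^ 2 ≤ ∑ r ∈ T, (1:ℝ) := by
          refine sum_le_sum fun r hr => ?_
          rw [RCLike.norm_conj]
          have := hφ r hr
          have h0 := norm_nonneg (φ r)
          nlinarith
      _ = T.card := by simp
  have h1 := dv_basic hν hU hν1 hU1 hac hg0 hg1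
  refine le_trans ?_ h1
  have key : ∀ y ∈ s, ν y * ((1 - 4 * hT T e φ y) * log T.card - log (8 * B)) ≤
      ν y * log ((1 + g y) / 2) := by
    intro y hy
    refine mul_le_mul_of_nonneg_left ?_ (hν y hy)
    rcases le_or_gt (hT T e φ y) (1 / 4) with h | h
    · have h2 := norm_sum_ge hTn e φ y h
      have h3 : (T.card : ℝ) / (4 * B) ≤ g y := by
        simp only [hg]
        rw [div_le_div_iff₀ (by positivity) (by positivity)]
        have h4 : ((T.card : ℝ) / 2) ^ 2 ≤ ‖∑ r ∈ T, (starRingEnd ℂ) (φ r) * e r y‖ ^ 2 :=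
          pow_le_pow_left₀ (by positivity) h2 2
        have h5 : (0:ℝ) ≤ 4 * B := by positivity
        nlinarith [mul_le_mul_of_nonneg_left h4 h5]
      have h4 : (T.card : ℝ) / (8 * B) ≤ (1 + g y) / 2 := by
        have : (T.card : ℝ) / (8 * B) = (T.card : ℝ) / (4 * B) / 2 := by field_simp; norm_num
        rw [this]
        linarith
      have h5 : log T.card - log (8 * B) ≤ log ((1 + g y) / 2) := by
        rw [← log_div hc.ne' (by positivity)]
        exact log_le_log (by positivity) h4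
      have h6 : (1 - 4 * hT T e φ y) * log T.card ≤ 1 * log T.card :=
        mul_le_mul_of_nonneg_right (by have := hT_nonneg T e φ y; linarith) hlog
      linarith
    · have h2 : (1 - 4 * hT T e φ y) * log T.card ≤ 0 :=
        mul_nonpos_of_nonpos_of_nonneg (by linarith) hlog
      have h3 : log (1 / (8 * B)) ≤ log ((1 + g y) / 2) := by
        refine log_le_log (by positivity) ?_
        have h4 := hg0 y hy
        have h5 : 1 / (8 * B) ≤ 1 / 2 := by
          rw [div_le_div_iff₀ (by positivity) (by positivity)]; linarith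
        linarith
      rw [one_div, log_inv] at h3
      linarith
  refine le_trans (le_of_eq ?_) (sum_le_sum key)
  have e1 : ∀ y, ν y * ((1 - 4 * hT T e φ y) * log T.card - log (8 * B)) =
      ν y * (log T.card - log (8 * B)) - (4 * log T.card) * (ν y * hT T e φ y) := by
    intro y; ring
  simp only [e1]
  rw [sum_sub_distrib, ← sum_mul, hν1, ← mul_sum]
  ring

/-- Gibbs: `0 ≤ D(ν‖U)` for a sub-probability `U` -/
lemma kl_nonneg {s : Finset Y} {ν U : Y → ℝ} (hν : ∀ y ∈ s, 0 ≤ ν y) (hU : ∀ y ∈ s, 0 ≤ U y)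
    (hν1 : ∑ y ∈ s, ν y = 1) (hU1 : ∑ y ∈ s, U y ≤ 1) (hac : ∀ y ∈ s, U y = 0 → ν y = 0) :
    0 ≤ ∑ y ∈ s, ν y * log (ν y / U y) := by
  have h := dv_basic (g := fun _ => 1) hν hU hν1 hU1 hac (fun _ _ => zero_le_one) (by simpa using hU1)
  simpa using h

/-- `-t log t ≤ 2 √t` -/
lemma negMulLog_le_two_sqrt {t : ℝ} (ht : 0 ≤ t) : -(t * log t) ≤ 2 * √t := by
  rcases ht.eq_or_lt with h0 | h0
  · rw [← h0]; simp
  · have hs : 0 < √t := sqrt_pos.mpr h0
    have h1 := log_le_sub_one_of_pos (inv_pos.mpr hs)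
    rw [log_inv] at h1
    have h2 : log t = 2 * log √t := by rw [log_sqrt h0.le]; ring
    have h3 : t = √t * √t := (mul_self_sqrt h0.le).symm
    have h4 : t * (√t)⁻¹ = √t := by
      nth_rewrite 1 [h3]
      field_simp
    rw [h2]
    have h5 : t * (- log √t) ≤ t * ((√t)⁻¹ - 1) := mul_le_mul_of_nonneg_left h1 h0.le
    nlinarith

/-- `-w log w ≤ w log J + 1/J - w` -/
lemma negMulLog_le_log {w J : ℝ} (hw : 0 ≤ w) (hJ : 0 < J) :
    -(w * log w) ≤ w * log J + 1 / J - w := by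
  rcases hw.eq_or_lt with h0 | h0
  · rw [← h0]; simp; positivity
  · have h1 := log_le_sub_one_of_pos (show 0 < 1 / J / w by positivity)
    rw [log_div (by positivity) h0.ne', one_div, log_inv] at h1
    have h2 : w * (- log J - log w) ≤ w * (J⁻¹ / w - 1) := mul_le_mul_of_nonneg_left h1 h0.le
    have h3 : w * (J⁻¹ / w - 1) = J⁻¹ - w := by field_simp
    rw [one_div]
    nlinarith

/-- the level set `e^{-j-1} < ρ ≤ e^{-j}` -/
def lev (I : Finset R) (ρ : R → ℝ) (j : ℕ) : Finset R :=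
  open Classical in I.filter fun r => 0 < ρ r ∧ ⌊-log (ρ r)⌋₊ = j

lemma mem_lev {I : Finset R} {ρ : R → ℝ} {j : ℕ} {r : R} :
    r ∈ lev I ρ j ↔ r ∈ I ∧ 0 < ρ r ∧ ⌊-log (ρ r)⌋₊ = j := by
  unfold lev; simp

lemma lev_bounds {I : Finset R} {ρ : R → ℝ} (hρle : ∀ r ∈ I, ρ r ≤ 1) {j : ℕ} {r : R}
    (h : r ∈ lev I ρ j) : exp (-(j:ℝ) - 1) ≤ ρ r ∧ ρ r ≤ exp (-(j:ℝ)) ∧ -log (ρ r) ≤ j + 1 := by
  obtain ⟨h1, h2, h3⟩ := mem_lev.mp h
  have h4 : 0 ≤ -log (ρ r) := by
    have := log_nonpos h2.le (hρle r h1)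
    linarith
  have h5 : (j:ℝ) ≤ -log (ρ r) := by rw [← h3]; exact Nat.floor_le h4
  have h6 : -log (ρ r) < j + 1 := by rw [← h3]; exact Nat.lt_floor_add_one _
  refine ⟨?_, ?_, h6.le⟩
  · rw [← le_log_iff_exp_le h2]; linarith
  · rw [← log_le_iff_le_exp h2]; linarith

/-- **the law version**: a law `ρ` on at most `e^L` letters -/
theorem dv_law {s : Finset Y} {ν U : Y → ℝ} (hν : ∀ y ∈ s, 0 ≤ ν y) (hU : ∀ y ∈ s, 0 ≤ U y)
    (hν1 : ∑ y ∈ s, ν y = 1) (hU1 : ∑ y ∈ s, U y ≤ 1) (hac : ∀ y ∈ s, U y = 0 → ν y = 0)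
    {I : Finset R} {ρ : R → ℝ} (hρ : ∀ r ∈ I, 0 ≤ ρ r) (hρ1 : ∑ r ∈ I, ρ r = 1)
    {L : ℝ} (hL : log I.card ≤ L) (e : R → Y → ℂ) (φ : R → ℂ) (hφ : ∀ r ∈ I, ‖φ r‖ ≤ 1)
    {B : ℝ} (hB : 1 ≤ B)
    (hBes : ∀ c : R → ℂ, ∑ y ∈ s, U y * ‖∑ r ∈ I, c r * e r y‖ ^ 2 ≤ B * ∑ r ∈ I, ‖c r‖ ^ 2) :
    ∑ r ∈ I, -(ρ r * log (ρ r)) ≤ ∑ y ∈ s, ν y * log (ν y / U y)
      + 4 * exp 1 * L * (∑ r ∈ I, ρ r * ∑ y ∈ s, ν y * ‖1 - (starRingEnd ℂ) (φ r) * e r y‖ ^ 2)
      + log B + log (2 * L + 3) + 6 := by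
  classical
  set D := ∑ y ∈ s, ν y * log (ν y / U y) with hD
  have hD0 : 0 ≤ D := kl_nonneg hν hU hν1 hU1 hac
  have hIne : I.Nonempty := by
    by_contra h
    rw [not_nonempty_iff_eq_empty] at h
    rw [h] at hρ1
    simp at hρ1
  have hIc : (0:ℝ) < I.card := by exact_mod_cast card_pos.mpr hIne
  have hIc1 : (1:ℝ) ≤ I.card := by exact_mod_cast card_pos.mpr hIne
  have hL0 : 0 ≤ L := (log_nonneg hIc1).trans hL
  have hB0 : 0 < B := by linarith
  have hlB : 0 ≤ log B := log_nonneg hB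
  have hρle : ∀ r ∈ I, ρ r ≤ 1 := fun r hr => hρ1 ▸ single_le_sum hρ hr
  set q : R → ℝ := fun r => ∑ y ∈ s, ν y * ‖1 - (starRingEnd ℂ) (φ r) * e r y‖ ^ 2 with hq
  have hq0 : ∀ r, 0 ≤ q r := fun r => sum_nonneg fun y hy => mul_nonneg (hν y hy) (by positivity)
  -- number of levels
  obtain ⟨J, hJ1, hJ2⟩ : ∃ J : ℕ, 2 * L + 2 ≤ J ∧ (J:ℝ) ≤ 2 * L + 3 := by
    refine ⟨⌈2 * L + 2⌉₊, Nat.le_ceil _, ?_⟩
    have := Nat.ceil_lt_add_one (a := 2 * L + 2) (by linarith)
    linarith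
  have hJ0 : (0:ℝ) < J := by linarith
  set w : ℕ → ℝ := fun j => ∑ r ∈ lev I ρ j, ρ r with hw
  have hsub : ∀ j, lev I ρ j ⊆ I := fun j r hr => (mem_lev.mp hr).1
  have hw0 : ∀ j, 0 ≤ w j := fun j => sum_nonneg fun r hr => hρ r (hsub j hr)
  -- the union of the levels below `J`
  have hdisj : ((range J : Finset ℕ) : Set ℕ).PairwiseDisjoint (lev I ρ) := by
    intro i _ j _ hij
    rw [Function.onFun, disjoint_left]
    intro r h1 h2
    exact hij ((mem_lev.mp h1).2.2.symm.trans (mem_lev.mp h2).2.2)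
  set V := (range J).biUnion (lev I ρ) with hV
  have hVI : V ⊆ I := by
    intro r hr
    rw [hV, mem_biUnion] at hr
    obtain ⟨j, _, h⟩ := hr
    exact hsub j h
  have hsumV : ∀ f : R → ℝ, ∑ r ∈ V, f r = ∑ j ∈ range J, ∑ r ∈ lev I ρ j, f r := by
    intro f
    rw [hV, sum_biUnion hdisj]
  have hw1 : ∑ j ∈ range J, w j ≤ 1 := by
    rw [← hρ1, ← hsumV]
    exact sum_le_sum_of_subset_of_nonneg hVI fun r hr _ => hρ r hr
  -- one level
  have hlevel : ∀ j ∈ range J, ∑ r ∈ lev I ρ j, -(ρ r * log (ρ r)) ≤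
      w j * (D + log (8 * B)) + 4 * exp 1 * L * ∑ r ∈ lev I ρ j, ρ r * q r
        + (w j * log J + 1 / J) := by
    intro j _
    rcases (lev I ρ j).eq_empty_or_nonempty with he | hne
    · have : w j = 0 := by simp only [hw]; rw [he]; simp
      rw [he, this]
      simp
    have hc : (0:ℝ) < (lev I ρ j).card := by exact_mod_cast card_pos.mpr hne
    have hcL : log (lev I ρ j).card ≤ L := by
      refine le_trans (log_le_log hc ?_) hL
      exact_mod_cast card_le_card (hsub j)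
    have hcl0 : 0 ≤ log ((lev I ρ j).card : ℝ) :=
      log_nonneg (by exact_mod_cast card_pos.mpr hne)
    have hwpos : 0 < w j := by
      refine sum_pos (fun r hr => (mem_lev.mp hr).2.1) hne
    -- entropy of the level
    have e1 : ∑ r ∈ lev I ρ j, -(ρ r * log (ρ r)) ≤ (j + 1) * w j := by
      simp only [hw]
      rw [mul_sum]
      refine sum_le_sum fun r hr => ?_
      obtain ⟨_, _, h3⟩ := lev_bounds hρle hr
      have h4 := (mem_lev.mp hr).2.1
      nlinarith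
    have e2 : w j ≤ (lev I ρ j).card * exp (-(j:ℝ)) := by
      simp only [hw]
      calc ∑ r ∈ lev I ρ j, ρ r ≤ ∑ r ∈ lev I ρ j, exp (-(j:ℝ)) :=
            sum_le_sum fun r hr => (lev_bounds hρle hr).2.1
        _ = _ := by rw [sum_const, nsmul_eq_mul]
    have e3 : (j:ℝ) + log (w j) ≤ log (lev I ρ j).card := by
      have := log_le_log hwpos e2
      rw [log_mul hc.ne' (exp_pos _).ne', log_exp] at this
      linarith
    -- the Donsker–Varadhan bound for the level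
    have hBesj : ∀ c : R → ℂ, ∑ y ∈ s, U y * ‖∑ r ∈ lev I ρ j, c r * e r y‖ ^ 2 ≤
        B * ∑ r ∈ lev I ρ j, ‖c r‖ ^ 2 := by
      intro c
      have h := hBes (fun r => if r ∈ lev I ρ j then c r else 0)
      have a1 : ∀ y, ∑ r ∈ I, (if r ∈ lev I ρ j then c r else 0) * e r y =
          ∑ r ∈ lev I ρ j, c r * e r y := by
        intro y
        rw [← sum_subset (hsub j)]
        · exact sum_congr rfl fun r hr => by rw [if_pos hr]
        · intro r _ hr
          rw [if_neg hr, zero_mul]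
      have a2 : ∑ r ∈ I, ‖(if r ∈ lev I ρ j then c r else 0 : ℂ)‖ ^ 2 =
          ∑ r ∈ lev I ρ j, ‖c r‖ ^ 2 := by
        rw [← sum_subset (hsub j)]
        · exact sum_congr rfl fun r hr => by rw [if_pos hr]
        · intro r _ hr
          rw [if_neg hr]; simp
      simp only [a1, a2] at h
      exact h
    have e4 := dv_set hν hU hν1 hU1 hac hne e φ (fun r hr => hφ r (hsub j hr)) hB hBesj
    rw [← hD] at e4
    have e5 : ∑ y ∈ s, ν y * hT (lev I ρ j) e φ y = (∑ r ∈ lev I ρ j, q r) / (lev I ρ j).card := by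
      simp only [hT, hq]
      rw [sum_comm, sum_div]
      refine sum_congr rfl fun y _ => ?_
      rw [← mul_sum]
      ring
    rw [e5] at e4
    -- `w s_j ≤ e ∑ ρ q`
    have e6 : w j * ((∑ r ∈ lev I ρ j, q r) / (lev I ρ j).card) ≤
        exp 1 * ∑ r ∈ lev I ρ j, ρ r * q r := by
      have b1 : w j / (lev I ρ j).card ≤ exp (-(j:ℝ)) := by
        rw [div_le_iff₀ hc]; linarith [e2]
      have b2 : 0 ≤ ∑ r ∈ lev I ρ j, q r := sum_nonneg fun r _ => hq0 r
      calc w j * ((∑ r ∈ lev I ρ j, q r) / (lev I ρ j).card)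
          = w j / (lev I ρ j).card * ∑ r ∈ lev I ρ j, q r := by ring
        _ ≤ exp (-(j:ℝ)) * ∑ r ∈ lev I ρ j, q r := mul_le_mul_of_nonneg_right b1 b2
        _ ≤ exp 1 * ∑ r ∈ lev I ρ j, ρ r * q r := by
            rw [mul_sum, mul_sum]
            refine sum_le_sum fun r hr => ?_
            obtain ⟨h3, _, _⟩ := lev_bounds hρle hr
            have h4 : exp (-(j:ℝ)) = exp 1 * exp (-(j:ℝ) - 1) := by
              rw [← exp_add]; congr 1; ring
            rw [h4, mul_assoc]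
            refine mul_le_mul_of_nonneg_left ?_ (exp_pos _).le
            exact mul_le_mul_of_nonneg_right h3 (hq0 r)
    have e7 : w j * log (lev I ρ j).card ≤
        w j * (D + log (8 * B)) + 4 * exp 1 * L * ∑ r ∈ lev I ρ j, ρ r * q r := by
      have b1 := mul_le_mul_of_nonneg_left e4 hwpos.le
      have b2 : w j * (4 * ((∑ r ∈ lev I ρ j, q r) / (lev I ρ j).card) * log (lev I ρ j).card) ≤
          4 * exp 1 * L * ∑ r ∈ lev I ρ j, ρ r * q r := by
        have c1 : 0 ≤ exp 1 * ∑ r ∈ lev I ρ j, ρ r * q r :=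
          mul_nonneg (exp_pos _).le (sum_nonneg fun r hr =>
            mul_nonneg (hρ r (hsub j hr)) (hq0 r))
        calc w j * (4 * ((∑ r ∈ lev I ρ j, q r) / (lev I ρ j).card) * log (lev I ρ j).card)
            = 4 * (w j * ((∑ r ∈ lev I ρ j, q r) / (lev I ρ j).card)) * log (lev I ρ j).card := by
              ring
          _ ≤ 4 * (exp 1 * ∑ r ∈ lev I ρ j, ρ r * q r) * log (lev I ρ j).card :=
              mul_le_mul_of_nonneg_right (mul_le_mul_of_nonneg_left e6 (by norm_num)) hcl0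
          _ ≤ 4 * (exp 1 * ∑ r ∈ lev I ρ j, ρ r * q r) * L :=
              mul_le_mul_of_nonneg_left hcL (by positivity)
          _ = _ := by ring
      have b3 : w j * ((1 - 4 * ((∑ r ∈ lev I ρ j, q r) / (lev I ρ j).card)) *
          log (lev I ρ j).card - log (8 * B)) = w j * log (lev I ρ j).card -
          w j * (4 * ((∑ r ∈ lev I ρ j, q r) / (lev I ρ j).card) * log (lev I ρ j).card) -
          w j * log (8 * B) := by ring
      rw [b3] at b1
      nlinarith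
    have e8 := negMulLog_le_log (hw0 j) hJ0
    have e9 : w j * (j + log (w j)) ≤ w j * log (lev I ρ j).card :=
      mul_le_mul_of_nonneg_left e3 hwpos.le
    nlinarith
  -- the tail
  have htail : ∑ r ∈ I \ V, -(ρ r * log (ρ r)) ≤ 1 := by
    have t1 : ∀ r ∈ I \ V, -(ρ r * log (ρ r)) ≤ 2 * exp (-(L + 1)) := by
      intro r hr
      rw [mem_sdiff] at hr
      rcases (hρ r hr.1).eq_or_lt with h0 | h0
      · rw [← h0]; simp; positivity
      have h1 : (J:ℝ) ≤ -log (ρ r) := by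
        by_contra hcon
        push Not at hcon
        apply hr.2
        rw [hV, mem_biUnion]
        refine ⟨⌊-log (ρ r)⌋₊, ?_, mem_lev.mpr ⟨hr.1, h0, rfl⟩⟩
        rw [mem_range, Nat.floor_lt]
        · exact hcon
        · have := log_nonpos h0.le (hρle r hr.1)
          linarith
      refine (negMulLog_le_two_sqrt h0.le).trans ?_
      refine mul_le_mul_of_nonneg_left ?_ (by norm_num)
      rw [sqrt_le_left (exp_pos _).le, ← exp_nat_mul]
      rw [← log_le_iff_le_exp h0]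
      push_cast
      linarith
    calc ∑ r ∈ I \ V, -(ρ r * log (ρ r)) ≤ ∑ r ∈ I \ V, 2 * exp (-(L + 1)) := sum_le_sum t1
      _ = ((I \ V).card : ℝ) * (2 * exp (-(L + 1))) := by rw [sum_const, nsmul_eq_mul]
      _ ≤ (I.card : ℝ) * (2 * exp (-(L + 1))) := by
          refine mul_le_mul_of_nonneg_right ?_ (by positivity)
          exact_mod_cast card_le_card sdiff_subset
      _ ≤ exp L * (2 * exp (-(L + 1))) := by
          refine mul_le_mul_of_nonneg_right ?_ (by positivity)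
          rwa [← log_le_iff_le_exp hIc]
      _ = 2 * exp (-1) := by
          rw [mul_left_comm, ← exp_add]; congr 2; ring
      _ ≤ 1 := by
          have h2 : (2:ℝ) ≤ exp 1 := by
            have := add_one_le_exp (1:ℝ); linarith
          rw [exp_neg, ← div_eq_mul_inv, div_le_one (exp_pos _)]
          exact h2
  -- summation
  have hsplit : ∑ r ∈ I, -(ρ r * log (ρ r)) =
      ∑ r ∈ I \ V, -(ρ r * log (ρ r)) + ∑ r ∈ V, -(ρ r * log (ρ r)) :=
    (sum_sdiff hVI).symm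
  have hmain : ∑ r ∈ V, -(ρ r * log (ρ r)) ≤ (D + log (8 * B)) +
      4 * exp 1 * L * (∑ r ∈ I, ρ r * q r) + (log J + 1) := by
    rw [hsumV]
    refine (sum_le_sum hlevel).trans ?_
    rw [sum_add_distrib, sum_add_distrib, ← sum_mul, ← mul_sum, sum_add_distrib, ← sum_mul,
      ← hsumV (fun r => ρ r * q r)]
    have g1 : 0 ≤ D + log (8 * B) := add_nonneg hD0 (log_nonneg (by linarith))
    have g2 : (∑ j ∈ range J, w j) * (D + log (8 * B)) ≤ 1 * (D + log (8 * B)) :=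
      mul_le_mul_of_nonneg_right hw1 g1
    have g3 : 0 ≤ log (J:ℝ) := log_nonneg (by linarith)
    have g4 : (∑ j ∈ range J, w j) * log J ≤ 1 * log J := mul_le_mul_of_nonneg_right hw1 g3
    have g5 : ∑ j ∈ range J, (1 / (J:ℝ)) = 1 := by
      rw [sum_const, card_range, nsmul_eq_mul]; field_simp
    have g6 : ∑ r ∈ V, ρ r * q r ≤ ∑ r ∈ I, ρ r * q r :=
      sum_le_sum_of_subset_of_nonneg hVI fun r hr _ => mul_nonneg (hρ r hr) (hq0 r)
    have g7 : 4 * exp 1 * L * ∑ r ∈ V, ρ r * q r ≤ 4 * exp 1 * L * ∑ r ∈ I, ρ r * q r :=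
      mul_le_mul_of_nonneg_left g6 (by positivity)
    linarith
  have hlog8 : log (8 * B) ≤ 3 + log B := by
    rw [log_mul (by norm_num) hB0.ne']
    have : log (8:ℝ) = 3 * log 2 := by
      rw [show (8:ℝ) = 2 ^ (3:ℕ) by norm_num, log_pow]; norm_num
    have h2 := log_two_lt_d9
    linarith
  have hJlog : log (J:ℝ) ≤ log (2 * L + 3) := log_le_log hJ0 hJ2
  rw [hsplit]
  linarith

end Vale.Agent.P091.T.H233
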