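import Vale.Agent.P091.T.H233.DatX
import Vale.Agent.P091.T.H43.DZ
import Vale.Agent.P091.T.H814.Exc

/-!
# P091, heart block, E1-D (helper233): the x-side of helper43's literal `DZ`

* `stIff_DZ` : the status of `DZ` is characterised by the process `pdZ`;
* `lm_DZ` : `S lm ≤ 1`;
* `energy_DZ` : `S (∑ dα²/α) ≤ 5 th A D (t+1) + 4`;
* `xm_DZ` : exceptional mass `≤ 2 exp (-th A D t / 2)`, `Exc = ExZ` of helper814.
-/

set_option autoImplicit false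

open Finset Vale.Agent.P091.H413
open Vale.Agent.P091.Spec Vale.Agent.P065.Ent
open scoped Classical

noncomputable section

namespace Vale.Agent.P091.T.H233

variable {C1 D : ℝ} {n b : ℕ} {ι : Type} [Fintype ι] (d : ZData C1 D n b ι) (A : ℝ)
  (J : List (Un n b)) (j0 a0 : ℕ) (Y : Finset ℕ) (W : ℕ → ℕ → Finset ℕ) (t : ℕ)

theorem stIff_stZ (P : PD ι) (t : ℕ) : P.StIff t (H43.stZ P t) :=
  PD.StIff.of_rec P (fun _ => rfl) (fun _ _ _ => rfl)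

theorem stIff_DZ : (pdZ d A J j0 a0).StIff t (H43.DZ d A J j0 a0 Y W t).st :=
  stIff_stZ (pdZ d A J j0 a0) t

theorem lm_DZ : S (H43.DZ d A J j0 a0 Y W t).n (H43.DZ d A J j0 a0 Y W t).lm [] ≤ 1 :=
  S_lm_le (stIff_DZ d A J j0 a0 Y W t) (fun κ _ => d.a_nonneg κ _) (fun _ _ => d.a_sum _)

theorem energy_DZ (hJ : ∀ k ∈ J, IsProb k.P) (hA : 0 < A) (hC1 : 0 ≤ C1) (hD : 0 ≤ D)
    (ht : t < sm A C1 D) :
    S (H43.DZ d A J j0 a0 Y W t).n (fun v => ∑ k, (H43.DZ d A J j0 a0 Y W t).sys.dα k v ^ 2 /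
      (H43.DZ d A J j0 a0 Y W t).sys.α k v) [] ≤ 5 * th A D (t + 1) + 4 :=
  energyD_wtZ d (stIff_DZ d A J j0 a0 Y W t) rfl (fun _ _ => rfl) hJ (fun _ _ _ => rfl)
    hA hC1 hD ht

theorem xm_DZ {c s0 : ℝ} (hep : Epoch d A c s0 J j0 a0 Y W) (ht : t < sm A C1 D) :
    ∀ v, v.length < (H43.DZ d A J j0 a0 Y W t).n →
      (H43.DZ d A J j0 a0 Y W t).xm (H814.ExZ d j0 a0 W t) v ≤
        2 * Real.exp (-(th A D t / 2)) :=
  xm_le d (stIff_DZ d A J j0 a0 Y W t) rfl (fun _ _ => rfl) hep ht (fun _ _ _ h => h)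

end Vale.Agent.P091.T.H233
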