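import Vale.Agent.P091.T.H233.StageW
import Vale.Agent.P091.T.H124.Local

/-!
# P091, heart block, row E1-A (helper233): energy of a stage of `pdZ` with arbitrary weights

* `newZ_expl` : every class activated by a stage `t < sm` (also the last one) is explained for the
  threshold `th A D (t+1)`;
* `xwG`, `energyG` : the system of the stage with arbitrary weights `wt` of an arbitrary finite
  index set, `wt ≤ e^th ref`, `∑ ref ≤ 1`: `S (∑ dα²/α) ≤ 5 th A D (t+1) + 4`;
* `removedG` : removed mass `≤ 1`.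
-/

set_option autoImplicit false

open Finset Vale.Agent.P091.H413 Vale.Agent.P091.T.H587 Vale.Agent.P091.T.H350
open Vale.Agent.P091.Spec Vale.Agent.P065.Ent
open scoped Classical

noncomputable section

namespace Vale.Agent.P091.T.H233

variable {C1 D : ℝ} {n b : ℕ} {ι : Type} [Fintype ι] (d : ZData C1 D n b ι) (A : ℝ)
  (J : List (Un n b)) (j0 a0 : ℕ)

/-- the activated classes are explained (also in the last stage, by the floor) -/
theorem newZ_expl {J : List (Un n b)} (hJ : ∀ k ∈ J, IsProb k.P) (hA : 0 < A) (hC1 : 0 ≤ C1)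
    (hD : 0 ≤ D) {t : ℕ} (ht : t < sm A C1 D) {κ : ι} {w : Node} (hw : w.length + j0 ≤ n)
    (h : κ ∈ (pdZ d A J j0 a0).new w t) :
    ¬ Unx d J (th A D (t + 1)) (j0 + w.length) (ia a0 w) κ := by
  have h1 : κ ∈ ruleZ d A J j0 a0 t ((pdZ d A J j0 a0).Wt w t) w := h
  by_cases ht' : t + 1 < sm A C1 D
  · unfold ruleZ at h1
    rw [if_pos ht'] at h1
    split_ifs at h1
    · exact (mem_filter.mp h1).2
    · simp at h1
  · have h2 : t + 1 = sm A C1 D := by omega
    rw [H124.not_unx, H124.xp_top d hJ]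
    · norm_num
    · rw [h2]
      have := th_sm (D := D) A hA hC1 hD
      linarith
    · exact floor_pres d A J j0 a0 hw ((pdZ d A J j0 a0).new_spec h).1

variable {I : Type} [Fintype I] (wt : ι → Node → I → ℝ) (wt0 : ∀ κ w i, 0 ≤ wt κ w i)
  (wtsum : ∀ κ w, ∑ i, wt κ w i ≤ 1)

/-- the `x`-side of Lemma E of the stage `t`, arbitrary weights -/
def xwG (t : ℕ) (look : Bool) : XW ι I (n - j0) :=
  (pdZ d A J j0 a0).toXW (n - j0) t look (fun κ x => d.a κ (ia a0 x))
    (fun κ _ => d.a_nonneg κ _) (fun _ _ => d.a_sum _) wt wt0 wtsum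

lemma bN_xwG (t : ℕ) (look : Bool) {w : Node} (hw : w.length < n - j0) :
    (xwG d A J j0 a0 wt wt0 wtsum t look).bN w =
      ∑ κ ∈ (pdZ d A J j0 a0).new w t, av n (j0 + w.length) (ia a0 w) (d.a κ) := by
  unfold XW.bN
  refine sum_congr rfl fun κ _ => ?_
  exact Lf_ia a0 (d.a κ) _ (by omega)

/-- **the `x`-energy of a stage, arbitrary weights** -/
theorem energyG (hA : 0 < A) (hC1 : 0 ≤ C1) (hD : 0 ≤ D) {t : ℕ} (ht : t < sm A C1 D)
    (look : Bool) (ref : Node → I → ℝ) (ref0 : ∀ w i, 0 ≤ ref w i)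
    (refsum : ∀ w, w.length < n - j0 → ∑ i, ref w i ≤ 1)
    (hwt : t + 1 < sm A C1 D → ∀ κ w i, w.length < n - j0 → κ ∈ (pdZ d A J j0 a0).new w t →
      wt κ w i ≤ Real.exp (th A D (t + 1)) * ref w i) {Q : Type} [Fintype Q]
    (γ : ι → Node → I → Q → Node → ℂ)
    (hγ : ∀ κ w i q x, x.length = n - j0 → ‖γ κ w i q x‖ ≤
      (xwG d A J j0 a0 wt wt0 wtsum t look).m κ x * (xwG d A J j0 a0 wt wt0 wtsum t look).wt κ w i)
    (g : Q → ℕ → Node → ℝ) (g0 : ∀ q j y, 0 ≤ g q j y)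
    (g_anti : ∀ q j y, y.length = n - j0 → g q (j + 1) y ≤ g q j y)
    (e : Fin (n - j0) × I → Node → ℂ) (he : ∀ k y, ‖e k y‖ ≤ 1) :
    S (n - j0) (fun v => ∑ k,
      ((xwG d A J j0 a0 wt wt0 wtsum t look).toLeaf γ hγ g g0 g_anti e he).sys.dα k v ^ 2 /
      ((xwG d A J j0 a0 wt wt0 wtsum t look).toLeaf γ hγ g g0 g_anti e he).sys.α k v) []
      ≤ 5 * th A D (t + 1) + 4 := by
  by_cases h1 : t + 1 < sm A C1 D
  · have hth := th_nonneg (D := D) A hA hD (t + 1)
    refine ((xwG d A J j0 a0 wt wt0 wtsum t look).energy γ hγ g g0 g_anti e he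
      (h := th A D (t + 1)) (h' := th A D (t + 1) / 2) hth (by linarith) ref ref0
      (fun κ w i hw hκ => hwt h1 κ w i hw hκ) (fun w hw hN => ?_)).trans (le_of_eq (by ring))
    refine (refsum w hw).trans ?_
    rw [bN_xwG d A J j0 a0 wt wt0 wtsum t look hw]
    obtain ⟨κ, hκ⟩ := hN
    have h2 : κ ∈ (pdZ d A J j0 a0).new w t := hκ
    have h3 : Real.exp (-(th A D (t + 1) / 2)) ≤
        ∑ κ ∈ (pdZ d A J j0 a0).new w t, av n (j0 + w.length) (ia a0 w) (d.a κ) := by
      have h4 : (pdZ d A J j0 a0).new w t =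
          ruleZ d A J j0 a0 t ((pdZ d A J j0 a0).Wt w t) w := rfl
      rw [h4] at h2 ⊢
      unfold ruleZ at h2 ⊢
      rw [if_pos h1] at h2 ⊢
      split_ifs at h2 ⊢ with h5
      · exact h5
      · simp at h2
    calc (1:ℝ) = Real.exp (th A D (t + 1) / 2) * Real.exp (-(th A D (t + 1) / 2)) := by
          rw [← Real.exp_add]; simp
      _ ≤ _ := mul_le_mul_of_nonneg_left h3 (Real.exp_pos _).le
  · -- last stage: reference = own mass
    have h2 : t + 1 = sm A C1 D := by omega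
    have hth := th_sm (D := D) A hA hC1 hD
    rw [← h2] at hth
    have hCD : 0 ≤ C1 * D := mul_nonneg hC1 hD
    refine ((xwG d A J j0 a0 wt wt0 wtsum t look).energy γ hγ g g0 g_anti e he (h := C1 * D)
      (h' := 0) hCD le_rfl (fun w i => ∑ κ ∈ (pdZ d A J j0 a0).new w t,
        av n (j0 + w.length) (ia a0 w) (d.a κ) * wt κ w i)
      (fun w i => sum_nonneg fun κ _ => mul_nonneg (H350.av_nonneg (d.a_nonneg κ)) (wt0 κ w i))
      (fun κ w i hw hκ => ?_) (fun w hw hN => ?_)).trans ?_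
    · have h3 : κ ∈ (pdZ d A J j0 a0).new w t := hκ
      have h4 := floor_pres d A J j0 a0 (by omega) ((pdZ d A J j0 a0).new_spec h3).1
      have h5 : av n (j0 + w.length) (ia a0 w) (d.a κ) * wt κ w i ≤
          ∑ κ ∈ (pdZ d A J j0 a0).new w t,
            av n (j0 + w.length) (ia a0 w) (d.a κ) * wt κ w i :=
        single_le_sum (f := fun κ => av n (j0 + w.length) (ia a0 w) (d.a κ) * wt κ w i)
          (fun κ _ => mul_nonneg (H350.av_nonneg (d.a_nonneg κ)) (wt0 κ w i)) h3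
      show wt κ w i ≤ _
      calc wt κ w i
          = Real.exp (C1 * D) * (Real.exp (-(C1 * D)) * wt κ w i) := by
            rw [← mul_assoc, ← Real.exp_add]; simp
        _ ≤ Real.exp (C1 * D) * (av n (j0 + w.length) (ia a0 w) (d.a κ) * wt κ w i) := by
            refine mul_le_mul_of_nonneg_left ?_ (Real.exp_pos _).le
            exact mul_le_mul_of_nonneg_right h4 (wt0 κ w i)
        _ ≤ _ := mul_le_mul_of_nonneg_left h5 (Real.exp_pos _).le
    · rw [bN_xwG d A J j0 a0 wt wt0 wtsum t look hw, Real.exp_zero, one_mul, sum_comm]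
      refine sum_le_sum fun κ _ => ?_
      rw [← mul_sum]
      exact mul_le_of_le_one_right (H350.av_nonneg (d.a_nonneg κ)) (wtsum κ w)
    · nlinarith

/-- **the removed mass of a stage, arbitrary weights** -/
theorem removedG (t : ℕ) (look : Bool) {Q : Type} [Fintype Q] (γ : ι → Node → I → Q → Node → ℂ)
    (hγ : ∀ κ w i q x, x.length = n - j0 → ‖γ κ w i q x‖ ≤
      (xwG d A J j0 a0 wt wt0 wtsum t look).m κ x * (xwG d A J j0 a0 wt wt0 wtsum t look).wt κ w i)
    (g : Q → ℕ → Node → ℝ) (g0 : ∀ q j y, 0 ≤ g q j y)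
    (g_anti : ∀ q j y, y.length = n - j0 → g q (j + 1) y ≤ g q j y)
    (e : Fin (n - j0) × I → Node → ℂ) (he : ∀ k y, ‖e k y‖ ≤ 1) :
    S (n - j0) (fun v => ∑ k, max
      (((xwG d A J j0 a0 wt wt0 wtsum t look).toLeaf γ hγ g g0 g_anti e he).sys.α' k v -
      ((xwG d A J j0 a0 wt wt0 wtsum t look).toLeaf γ hγ g g0 g_anti e he).sys.α k v) 0) [] ≤ 1 :=
  (xwG d A J j0 a0 wt wt0 wtsum t look).removed γ hγ g g0 g_anti e he

end Vale.Agent.P091.T.H233
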